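import Vale.Agent.P088.R2.H516.B.Def

/-!
# Zone B1: the error terms of the exact identity as products of derivatives of total order three
-/

open MeasureTheory Set

noncomputable section

namespace Vale.Agent.P088.R2.H516.B

open Vale.Agent.P088.R2.H464.EP Vale.Agent.P088.R2.H961.B.T

variable {ι E : Type} [Fintype ι] [DecidableEq ι] [NormedAddCommGroup E] [NormedSpace ℝ E]

section alg
variable (S : Dat ι E)

theorem kDs (j i : ι) (x : TE E) :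
    S.K j (S.Ds i x) = S.Ds i (S.K j x) + (2 : ℝ) • S.L j (S.D i x + S.Ds i x) :=
  LinearMap.congr_fun (S.K_Ds j i) x

theorem kL (i j : ι) (x : TE E) : S.K i (S.L j x) = S.L j (S.K i x) + S.LL i j x :=
  LinearMap.congr_fun (S.K_L i j) x

theorem kKs (i j : ι) (x : TE E) :
    S.K i (S.Ks j x) = S.Ks j (S.K i x) + (2 : ℝ) • ml (kp S i j) x :=
  LinearMap.congr_fun (S.K_Ks i j) x

theorem kD (i j : ι) (x : TE E) : S.K i (S.D j x) = S.D j (S.K i x) :=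
  LinearMap.congr_fun (S.K_D i j) x

theorem kK (i j : ι) (x : TE E) : S.K i (S.K j x) = S.K j (S.K i x) :=
  LinearMap.congr_fun (S.K_K i j) x

theorem dL (i j : ι) (x : TE E) : S.D i (S.L j x) = S.L j (S.D i x) :=
  LinearMap.congr_fun (S.D_L i j) x

theorem dsL (i j : ι) (x : TE E) : S.Ds i (S.L j x) = S.L j (S.Ds i x) :=
  LinearMap.congr_fun (S.Ds_L i j) x

theorem ksL (i j : ι) (x : TE E) : S.Ks i (S.L j x) = S.L j (S.Ks i x) - S.LL i j x := by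
  have h : S.L j (S.Ks i x) = S.Ks i (S.L j x) + S.LL i j x :=
    LinearMap.congr_fun (S.ml_Ks i (S.l1 j)) x
  rw [h]; abel

end alg

section ip
variable (S : Dat ι E) [MeasurableSpace E] [BorelSpace E] [FiniteDimensional ℝ E]
  (μ : Measure E) [μ.IsAddHaarMeasure]

include μ in
theorem dKs (i j : ι) (x : TE E) :
    S.D i (S.Ks j x) = S.Ks j (S.D i x) + (2 : ℝ) • S.L j (S.D i x + S.Ds i x) := by
  have h := LinearMap.congr_fun (S.D_Ks μ j i) x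
  have h2 : S.D i (S.Ks j x) = S.Ks j (S.D i x) +
      (2 : ℝ) • (S.D i (S.L j x) + S.Ds i (S.L j x)) := h
  rw [h2, dL, dsL, map_add]

theorem aD (i : ι) (x y : TE E) : ip μ (S.D i x) y = ip μ x (S.Ds i y) := S.adj_D μ i x y
theorem aDs (i : ι) (x y : TE E) : ip μ (S.Ds i x) y = ip μ x (S.D i y) := (S.adj_D μ i).symm x y
theorem aK (i : ι) (x y : TE E) : ip μ (S.K i x) y = ip μ x (S.Ks i y) := S.adj_K μ i x y
theorem aKs (i : ι) (x y : TE E) : ip μ (S.Ks i x) y = ip μ x (S.K i y) := (S.adj_K μ i).symm x y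
theorem aL (i : ι) (x y : TE E) : ip μ (S.L i x) y = ip μ x (S.L i y) := ip_ml μ _ x y

/-- `⟨D_i^{*2} b, K_j^{*2} b⟩ - ⟨D_i² b, K_j² b⟩`. -/
theorem x1a (i j : ι) (b : TE E) :
    ip μ (S.Ds i (S.Ds i b)) (S.Ks j (S.Ks j b)) - ip μ (S.D i (S.D i b)) (S.K j (S.K j b)) =
    2 * ip μ (S.L j (S.Ds i (S.D i b) + S.Ds i (S.Ds i b) + (S.D i (S.Ds i b) +
      S.Ds i (S.Ds i b)))) (S.Ks j b) +
    2 * ip μ (S.K j b) (S.L j (S.D i (S.D i b) + S.Ds i (S.D i b) + (S.D i (S.D i b) +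
      S.D i (S.Ds i b)))) := by
  have e1 : ip μ (S.Ds i (S.Ds i b)) (S.Ks j (S.Ks j b)) =
      ip μ (S.K j (S.Ds i (S.Ds i b))) (S.Ks j b) := by rw [← aK]
  have e2 : S.K j (S.Ds i (S.Ds i b)) = S.Ds i (S.Ds i (S.K j b)) +
      (2 : ℝ) • S.L j (S.Ds i (S.D i b) + S.Ds i (S.Ds i b) + (S.D i (S.Ds i b) +
      S.Ds i (S.Ds i b))) := by
    rw [kDs, kDs, map_add, map_smul, dsL, map_add]
    simp only [map_add]
    module
  have e3 : ip μ (S.Ds i (S.Ds i (S.K j b))) (S.Ks j b) =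
      ip μ (S.K j b) (S.D i (S.D i (S.Ks j b))) := by rw [aDs, aDs]
  have e4 : S.D i (S.D i (S.Ks j b)) = S.Ks j (S.D i (S.D i b)) +
      (2 : ℝ) • S.L j (S.D i (S.D i b) + S.Ds i (S.D i b) + (S.D i (S.D i b) +
      S.D i (S.Ds i b))) := by
    rw [dKs S μ, map_add, map_smul, dKs S μ, dL, map_add]
    simp only [map_add]
    module
  have e5 : ip μ (S.K j b) (S.Ks j (S.D i (S.D i b))) =
      ip μ (S.D i (S.D i b)) (S.K j (S.K j b)) := by rw [← aK, ip_comm]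
  rw [e1, e2, map_add, map_smul, LinearMap.add_apply, LinearMap.smul_apply, e3, e4, map_add,
    map_smul, e5, smul_eq_mul, smul_eq_mul]
  ring

/-- `⟨K_i^{*2} b, K_j^{*2} b⟩ - ⟨K_i² b, K_j² b⟩`. -/
theorem x1b (i j : ι) (b : TE E) :
    ip μ (S.Ks i (S.Ks i b)) (S.Ks j (S.Ks j b)) - ip μ (S.K i (S.K i b)) (S.K j (S.K j b)) =
    2 * (ip μ (ml (kp S j i) b) (S.K i (S.Ks j b)) + ip μ (ml (kp S j i) (S.Ks i b)) (S.Ks j b) +
      ip μ (S.K j b) (ml (kp S i j) (S.K i b)) + ip μ (S.Ks i (S.K j b)) (ml (kp S i j) b)) := by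
  have e1 : ip μ (S.Ks i (S.Ks i b)) (S.Ks j (S.Ks j b)) =
      ip μ (S.K j (S.Ks i (S.Ks i b))) (S.Ks j b) := by rw [← aK]
  have e2 : S.K j (S.Ks i (S.Ks i b)) = S.Ks i (S.Ks i (S.K j b)) +
      (2 : ℝ) • S.Ks i (ml (kp S j i) b) + (2 : ℝ) • ml (kp S j i) (S.Ks i b) := by
    rw [kKs, kKs, map_add, map_smul]
  have e3 : ip μ (S.Ks i (S.Ks i (S.K j b))) (S.Ks j b) =
      ip μ (S.K j b) (S.K i (S.K i (S.Ks j b))) := by rw [aKs, aKs]
  have e4 : S.K i (S.K i (S.Ks j b)) = S.Ks j (S.K i (S.K i b)) +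
      (2 : ℝ) • ml (kp S i j) (S.K i b) + (2 : ℝ) • S.K i (ml (kp S i j) b) := by
    rw [kKs, map_add, map_smul, kKs]
  have e5 : ip μ (S.K j b) (S.Ks j (S.K i (S.K i b))) =
      ip μ (S.K i (S.K i b)) (S.K j (S.K j b)) := by rw [← aK, ip_comm]
  have e6 : ip μ (S.Ks i (ml (kp S j i) b)) (S.Ks j b) =
      ip μ (ml (kp S j i) b) (S.K i (S.Ks j b)) := aKs S μ _ _ _
  have e7 : ip μ (S.K j b) (S.K i (ml (kp S i j) b)) =
      ip μ (S.Ks i (S.K j b)) (ml (kp S i j) b) := (aKs S μ _ _ _).symm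
  rw [e1, e2]
  simp only [map_add, map_smul, LinearMap.add_apply, LinearMap.smul_apply, smul_eq_mul]
  rw [e3, e4]
  simp only [map_add, map_smul, smul_eq_mul]
  rw [e5, e6, e7]
  ring

/-- `⟨K_j^{*2} b, D_i^* K_i^* c⟩ - ⟨D_i K_i b, K_j² c⟩`. -/
theorem x2 (i j : ι) (b c : TE E) :
    ip μ (S.Ks j (S.Ks j b)) (S.Ds i (S.Ks i c)) - ip μ (S.D i (S.K i b)) (S.K j (S.K j c)) =
    2 * (ip μ (S.L j (S.D i (S.Ks j b) + S.Ds i (S.Ks j b))) (S.Ks i c) +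
      ip μ (S.D i (S.Ks j b)) (ml (kp S j i) c) + ip μ (ml (kp S i j) (S.D i b)) (S.K j c) +
      ip μ (S.L j (S.K i (S.D i b) + S.K i (S.Ds i b)) + S.LL i j (S.D i b + S.Ds i b))
        (S.K j c)) := by
  have e1 : ip μ (S.Ks j (S.Ks j b)) (S.Ds i (S.Ks i c)) =
      ip μ (S.Ks j b) (S.K j (S.Ds i (S.Ks i c))) := aKs S μ _ _ _
  have e2 : S.K j (S.Ds i (S.Ks i c)) = S.Ds i (S.Ks i (S.K j c)) +
      (2 : ℝ) • S.Ds i (ml (kp S j i) c) +
      (2 : ℝ) • S.L j (S.D i (S.Ks i c) + S.Ds i (S.Ks i c)) := by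
    rw [kDs, kKs, map_add, map_smul]
  have e3 : ip μ (S.Ks j b) (S.Ds i (S.Ks i (S.K j c))) =
      ip μ (S.K i (S.D i (S.Ks j b))) (S.K j c) := by rw [← aD, ← aK]
  have e4 : S.K i (S.D i (S.Ks j b)) = S.Ks j (S.D i (S.K i b)) +
      (2 : ℝ) • ml (kp S i j) (S.D i b) +
      (2 : ℝ) • (S.L j (S.K i (S.D i b) + S.K i (S.Ds i b)) + S.LL i j (S.D i b + S.Ds i b)) := by
    rw [dKs S μ, map_add, map_smul, kKs, kL, kD]
    simp only [map_add, kD]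
  have e5 : ip μ (S.Ks j (S.D i (S.K i b))) (S.K j c) =
      ip μ (S.D i (S.K i b)) (S.K j (S.K j c)) := aKs S μ _ _ _
  have e6 : ip μ (S.Ks j b) (S.L j (S.D i (S.Ks i c) + S.Ds i (S.Ks i c))) =
      ip μ (S.L j (S.D i (S.Ks j b) + S.Ds i (S.Ks j b))) (S.Ks i c) := by
    rw [← aL, map_add, ← aDs, ← aD, ← LinearMap.add_apply, ← map_add, dL, dsL, ← map_add,
      add_comm (S.Ds i (S.Ks j b))]
  have e7 : ip μ (S.Ks j b) (S.Ds i (ml (kp S j i) c)) =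
      ip μ (S.D i (S.Ks j b)) (ml (kp S j i) c) := (aD S μ _ _ _).symm
  rw [e1, e2]
  simp only [map_add (ip μ (S.Ks j b)), map_smul (ip μ (S.Ks j b)), smul_eq_mul]
  rw [e3, e4, e6, e7]
  rw [map_add (ip μ), map_add (ip μ), map_smul (ip μ), map_smul (ip μ), LinearMap.add_apply,
    LinearMap.add_apply, LinearMap.smul_apply, LinearMap.smul_apply, smul_eq_mul, smul_eq_mul, e5]
  ring

/-- `⟨K_i² b, l_j D_j c⟩`. -/
theorem e2 (i j : ι) (b c : TE E) :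
    ip μ (S.K i (S.K i b)) (S.L j (S.D j c)) =
    ip μ (S.Ds j (S.K i b)) (S.L j (S.Ks i c)) - ip μ (S.Ds j (S.K i b)) (S.LL i j c) -
      2 * ip μ (S.L j (S.L i (S.D j (S.K i b) + S.Ds j (S.K i b)))) c := by
  have e1 : ip μ (S.K i (S.K i b)) (S.L j (S.D j c)) =
      ip μ (S.Ds j (S.K i (S.K i b))) (S.L j c) := by rw [← dL, ← aDs]
  have e2 : S.Ds j (S.K i (S.K i b)) = S.K i (S.Ds j (S.K i b)) -
      (2 : ℝ) • S.L i (S.D j (S.K i b) + S.Ds j (S.K i b)) := by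
    rw [kDs S i j (S.K i b)]; abel
  have e3 : ip μ (S.K i (S.Ds j (S.K i b))) (S.L j c) =
      ip μ (S.Ds j (S.K i b)) (S.L j (S.Ks i c)) - ip μ (S.Ds j (S.K i b)) (S.LL i j c) := by
    rw [aK, ksL, map_sub]
  rw [e1, e2, map_sub, map_smul, LinearMap.sub_apply, LinearMap.smul_apply, e3, smul_eq_mul,
    aL S μ j (S.L i (S.D j (S.K i b) + S.Ds j (S.K i b))) c]

end ip

end Vale.Agent.P088.R2.H516.B
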