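import Vale.Agent.P088.R2.H516.B.Alg
import Vale.Agent.P088.R2.H593.W.Core3

/-!
# Zone B1: the error terms which contain `D² c`
-/

open MeasureTheory Set

noncomputable section

namespace Vale.Agent.P088.R2.H516.B

open Vale.Agent.P088.R2.H464.EP Vale.Agent.P088.R2.H961.B.T Vale.Agent.P088.HY.H593W

variable {ι E : Type} [Fintype ι] [DecidableEq ι] [NormedAddCommGroup E] [NormedSpace ℝ E]

/-- The function paired with `D² c`. -/
def gg (S : Dat ι E) (b c : TE E) : TE E :=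
  (8 : ℝ) • ∑ j, S.L j (S.D j b) +
  (4 : ℝ) • ∑ j, ∑ i, S.EI (S.L j (S.L i (S.D j (S.Ds i c)))) +
  (2 : ℝ) • ∑ j, ∑ i, S.EI (S.L j (S.L i (S.D j (S.D i c)))) +
  (2 : ℝ) • ∑ i, S.L i (S.K i c) -
  (1 / 2 : ℝ) • ∑ i, ∑ k, S.EI (S.L i (S.L i (S.D k (S.D k c)))) +
  ∑ j, ∑ i, S.EI (S.LL j i (S.Ds i (S.D j c))) +
  (2 : ℝ) • ∑ i, S.LL i i c -
  (2 : ℝ) • ∑ j, ∑ i, S.EI (S.L j (S.L i (S.Ds j (S.D i c))))

variable (S : Dat ι E) [MeasurableSpace E] [BorelSpace E] [FiniteDimensional ℝ E]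
  (μ : Measure E) [μ.IsAddHaarMeasure]

theorem osc_inv : (S.osc μ).Inv S.EI :=
  ⟨fun x => LinearMap.congr_fun S.EE_EI x, fun x => LinearMap.congr_fun S.EI_EE x⟩

theorem oD2 (x : TE E) : (S.osc μ).D2 x = S.D2 x := by
  rw [Osc.D2_apply]
  simp only [Dat.D2, LinearMap.sum_apply]
  rfl

theorem aD2 (x y : TE E) : ip μ (S.D2 x) y = ip μ x (S.Ds2 y) := S.adj_D2 μ x y

/-- The terms with `l''`. -/
theorem lt_eq (c : TE E) : (S.osc μ).LT S.EI c =
    ip μ (S.D2 c) (∑ j, ∑ i, S.EI (S.LL j i (S.Ds i (S.D j c))) + (2 : ℝ) • ∑ i, S.LL i i c) := by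
  have hI := osc_inv S μ
  have e1 : ∀ j i, S.D j (S.LL j i (S.Ds i (S.Ds2 c))) =
      S.Ds2 (S.LL j i (S.Ds i (S.D j c))) + (4 : ℝ) • S.EE (S.LL j i (S.Ds i (S.Ds j c))) +
      if j = i then (2 : ℝ) • S.EE (S.LL j i (S.Ds2 c)) else 0 := by
    intro j i
    have h1 : S.D j (S.LL j i (S.Ds i (S.Ds2 c))) = S.LL j i (S.D j (S.Ds i (S.Ds2 c))) :=
      LinearMap.congr_fun (S.D_LL j j i) _
    have h2 : S.D j (S.Ds i (S.Ds2 c)) = S.Ds i (S.D j (S.Ds2 c)) +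
        if j = i then (2 : ℝ) • S.EE (S.Ds2 c) else 0 := (S.osc μ).DDs j i _
    have h3 : S.D j (S.Ds2 c) = S.Ds2 (S.D j c) + (4 : ℝ) • S.EE (S.Ds j c) := by
      have := (S.osc μ).DDs2 j c
      rw [Osc.Ds2_apply, Osc.Ds2_apply] at this
      simp only [Dat.Ds2, LinearMap.sum_apply]
      exact this
    have h4 : S.Ds i (S.Ds2 (S.D j c)) = S.Ds2 (S.Ds i (S.D j c)) := by
      simp only [Dat.Ds2, LinearMap.sum_apply, map_sum]
      exact Finset.sum_congr rfl fun k _ => by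
        have e : ∀ x, S.Ds i (S.Ds k x) = S.Ds k (S.Ds i x) := fun x =>
          LinearMap.congr_fun (S.Ds_Ds i k) x
        rw [Module.End.mul_apply, Module.End.mul_apply, e, e]
    have h5 : ∀ x, S.Ds i (S.EE x) = S.EE (S.Ds i x) := fun x => LinearMap.congr_fun (S.Ds_EE i) x
    have h6 : ∀ x, S.LL j i (S.EE x) = S.EE (S.LL j i x) := fun x =>
      LinearMap.congr_fun (mlc (S.l2 j i) S.e) x
    have h7 : ∀ x, S.LL j i (S.Ds2 x) = S.Ds2 (S.LL j i x) := fun x => by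
      have e : ∀ k y, S.LL j i (S.Ds k y) = S.Ds k (S.LL j i y) := fun k y =>
        (LinearMap.congr_fun (S.Ds_LL k j i) y).symm
      simp only [Dat.Ds2, LinearMap.sum_apply, map_sum]
      exact Finset.sum_congr rfl fun k _ => by
        rw [Module.End.mul_apply, Module.End.mul_apply, e, e]
    rw [h1, h2, h3, map_add (S.Ds i), map_smul (S.Ds i), h4, h5, map_add, map_add, map_smul,
      h6, h7]
    by_cases h : j = i
    · rw [if_pos h, if_pos h, map_smul, h6]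
    · rw [if_neg h, if_neg h, map_zero]
  have e2 : S.EI (∑ j, ∑ i, S.D j (S.LL j i (S.Ds i (S.Ds2 c)))) =
      ∑ j, ∑ i, S.EI (S.Ds2 (S.LL j i (S.Ds i (S.D j c)))) +
      (4 : ℝ) • ∑ j, ∑ i, S.LL j i (S.Ds i (S.Ds j c)) + (2 : ℝ) • ∑ j, S.LL j j (S.Ds2 c) := by
    have r : ∀ x, S.EI (S.EE x) = x := fun x => hI.r x
    have q : ∀ j i, S.EI (S.D j (S.LL j i (S.Ds i (S.Ds2 c)))) =
        S.EI (S.Ds2 (S.LL j i (S.Ds i (S.D j c)))) + (4 : ℝ) • S.LL j i (S.Ds i (S.Ds j c)) +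
        if j = i then (2 : ℝ) • S.LL j i (S.Ds2 c) else 0 := by
      intro j i
      rw [e1, map_add, map_add, map_smul, r]
      by_cases h : j = i
      · rw [if_pos h, if_pos h, map_smul, r]
      · rw [if_neg h, if_neg h, map_zero]
    simp only [map_sum, q, Finset.sum_add_distrib, Finset.sum_ite_eq, Finset.mem_univ, if_true,
      Finset.smul_sum]
  have e3 : ∀ j i, ip μ (S.EI (S.Ds2 (S.LL j i (S.Ds i (S.D j c))))) c =
      ip μ (S.D2 c) (S.EI (S.LL j i (S.Ds i (S.D j c)))) := by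
    intro j i
    have h1 : ∀ x, S.EI (S.Ds2 x) = S.Ds2 (S.EI x) := fun x => by
      have := hI.Ds2 x
      rw [Osc.Ds2_apply, Osc.Ds2_apply] at this
      simp only [Dat.Ds2, LinearMap.sum_apply]
      exact this
    rw [h1, (S.adj_D2 μ).symm, ip_comm]
  have e4 : ∀ j, ip μ (S.LL j j (S.Ds2 c)) c = ip μ (S.D2 c) (S.LL j j c) := by
    intro j
    have h7 : S.LL j j (S.Ds2 c) = S.Ds2 (S.LL j j c) := by
      have e : ∀ k y, S.LL j j (S.Ds k y) = S.Ds k (S.LL j j y) := fun k y =>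
        (LinearMap.congr_fun (S.Ds_LL k j j) y).symm
      simp only [Dat.Ds2, LinearMap.sum_apply, map_sum]
      exact Finset.sum_congr rfl fun k _ => by
        rw [Module.End.mul_apply, Module.End.mul_apply, e, e]
    rw [h7, (S.adj_D2 μ).symm, ip_comm]
  have e5 : ∑ j, ∑ i, S.Ds j (S.LL j i (S.Ds i c)) = ∑ j, ∑ i, S.LL j i (S.Ds i (S.Ds j c)) := by
    refine Finset.sum_congr rfl fun j _ => Finset.sum_congr rfl fun i _ => ?_
    have a : S.Ds j (S.LL j i (S.Ds i c)) = S.LL j i (S.Ds j (S.Ds i c)) :=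
      LinearMap.congr_fun (S.Ds_LL j j i) _
    have b : S.Ds j (S.Ds i c) = S.Ds i (S.Ds j c) := LinearMap.congr_fun (S.Ds_Ds j i) c
    rw [a, b]
  have e6 : (S.osc μ).LT S.EI c =
      ip μ (S.EI (∑ j, ∑ i, S.D j (S.LL j i (S.Ds i (S.Ds2 c))))) c -
      4 * ip μ (∑ j, ∑ i, S.Ds j (S.LL j i (S.Ds i c))) c := by
    have : (S.osc μ).Ds2 c = S.Ds2 c := by
      rw [Osc.Ds2_apply]
      simp only [Dat.Ds2, LinearMap.sum_apply]
      rfl
    rw [Osc.LT, this]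
    rfl
  rw [e6, e2, e5]
  simp only [map_add, map_smul, map_sum, LinearMap.add_apply, LinearMap.smul_apply,
    LinearMap.sum_apply, smul_eq_mul, e3, e4]
  ring

/-- All terms with `D² c`. -/
theorem dc_eq (b c : TE E) : (S.osc μ).Er S.EI b c -
    2 * ip μ (S.EI ((S.osc μ).LDD ((S.osc μ).D2 c))) ((S.osc μ).LDD c) =
    ip μ (S.D2 c) (gg S b c) := by
  have hI := osc_inv S μ
  set A := S.osc μ with hA
  have aEI : ∀ x y, ip μ (S.EI x) y = ip μ x (S.EI y) := ip_ml μ S.e'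
  have f1 : ip μ (A.LDD (A.bp S.EI b c)) (A.D2 c) = ip μ (S.D2 c) (∑ j, S.L j (S.D j b) +
      (1 / 2 : ℝ) • ∑ j, ∑ i, S.EI (S.L j (S.L i (S.D j (S.Ds i c))))) := by
    rw [hA, oD2, ← hA, ip_comm]
    congr 1
    rw [Osc.bp, map_add, map_smul, Osc.LDD_apply, Osc.LDD_apply]
    congr 2
    refine Finset.sum_congr rfl fun j _ => ?_
    have g1 : A.D j (S.EI (A.LS c)) = S.EI (A.D j (A.LS c)) := (hI.D j _).symm
    have g2 : A.L j (S.EI (A.D j (A.LS c))) = S.EI (A.L j (A.D j (A.LS c))) :=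
      LinearMap.congr_fun (mlc (S.l1 j) S.e') _
    rw [g1, g2, Osc.LS_apply, map_sum, map_sum, map_sum]
    refine Finset.sum_congr rfl fun i _ => ?_
    have g3 : A.D j (A.L i (A.Ds i c)) = A.L i (A.D j (A.Ds i c)) := (A.LD i j _).symm
    rw [g3]
    rfl
  have f2 : ip μ (S.EI (A.D2 c)) (A.LDD (A.LDD c)) =
      ip μ (S.D2 c) (∑ j, ∑ i, S.EI (S.L j (S.L i (S.D j (S.D i c))))) := by
    rw [hA, oD2, ← hA, aEI]
    congr 1
    rw [Osc.LDD_apply, Osc.LDD_apply, map_sum]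
    refine Finset.sum_congr rfl fun j _ => ?_
    rw [map_sum, map_sum, map_sum]
    refine Finset.sum_congr rfl fun i _ => ?_
    have g3 : A.D j (A.L i (A.D i c)) = A.L i (A.D j (A.D i c)) := (A.LD i j _).symm
    rw [g3]
    rfl
  have f3 : ip μ (A.D2 c) (A.Lv c) = ip μ (S.D2 c) (∑ i, S.L i (S.K i c) -
      (1 / 2 : ℝ) • ∑ i, ∑ k, S.EI (S.L i (S.L i (S.D k (S.D k c))))) := by
    rw [hA, oD2, ← hA]
    congr 1
    rw [Osc.Lv_apply, Finset.smul_sum, ← Finset.sum_sub_distrib]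
    refine Finset.sum_congr rfl fun i _ => ?_
    have g1 : A.v i c = S.K i c - (1 / 2 : ℝ) • S.L i (S.EI (S.D2 c)) := by
      change S.v i c = _
      rw [Dat.v]
      rfl
    rw [g1]
    change S.L i _ = _
    rw [map_sub, map_smul]
    congr 2
    have g2 : ∀ x, S.L i (S.EI x) = S.EI (S.L i x) := fun x =>
      LinearMap.congr_fun (mlc (S.l1 i) S.e') x
    rw [g2, g2]
    simp only [Dat.D2, LinearMap.sum_apply, map_sum]
    rfl
  have f4 : ip μ (S.EI (A.L2 (A.D2 c))) (A.D2 c) =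
      ip μ (S.D2 c) (∑ i, ∑ k, S.EI (S.L i (S.L i (S.D k (S.D k c))))) := by
    rw [hA, oD2, ← hA, ip_comm]
    congr 1
    rw [Osc.L2_apply, map_sum]
    refine Finset.sum_congr rfl fun i _ => ?_
    simp only [Dat.D2, LinearMap.sum_apply, map_sum]
    rfl
  have f5 : ip μ (S.EI (A.LDD (A.D2 c))) (A.LDD c) =
      ip μ (S.D2 c) (∑ j, ∑ i, S.EI (S.L j (S.L i (S.Ds j (S.D i c))))) := by
    have g1 : ip μ (S.EI (A.LDD (A.D2 c))) (A.LDD c) = ip μ (A.D2 c) (A.LS (S.EI (A.LDD c))) := by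
      rw [aEI]; exact A.adLDD _ _
    rw [g1, hA, oD2, ← hA]
    congr 1
    rw [Osc.LS_apply]
    refine Finset.sum_congr rfl fun j _ => ?_
    have g2 : A.Ds j (S.EI (A.LDD c)) = S.EI (A.Ds j (A.LDD c)) := (hI.Ds j _).symm
    have g3 : ∀ x, A.L j (S.EI x) = S.EI (A.L j x) := fun x =>
      LinearMap.congr_fun (mlc (S.l1 j) S.e') x
    rw [g2, g3, Osc.LDD_apply, map_sum, map_sum, map_sum]
    refine Finset.sum_congr rfl fun i _ => ?_
    have g4 : A.Ds j (A.L i (A.D i c)) = A.L i (A.Ds j (A.D i c)) := (A.LDs i j _).symm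
    rw [g4]
    rfl
  have f6 := lt_eq S μ c
  rw [← hA] at f6
  have f0 : A.Er S.EI b c = 8 * ip μ (A.LDD (A.bp S.EI b c)) (A.D2 c) +
      2 * ip μ (S.EI (A.D2 c)) (A.LDD (A.LDD c)) + 2 * ip μ (A.D2 c) (A.Lv c) +
      (1 / 2) * ip μ (S.EI (A.L2 (A.D2 c))) (A.D2 c) + A.LT S.EI c := rfl
  rw [f0, f1, f2, f3, f4, f5, f6, gg]
  simp only [map_add, map_sub, map_smul, smul_eq_mul]
  ring

end Vale.Agent.P088.R2.H516.B
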