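import Vale.Agent.P088.R2.H464.EP.Inst2
import Vale.Agent.P088.R2.H961.B.EnT

/-!
# Zone B1: weights, list of bounds (interface between the energy bounds and the error terms)

`W = E |q|² / 2 + φ(p)`, `E = E₀ e^{2 l(p)}` (helper464's `Dat`), `μ = 1 + E |q|²`.
-/

open MeasureTheory Set

noncomputable section

namespace Vale.Agent.P088.R2.H516.B

open Vale.Agent.P088.R2.H464.EP Vale.Agent.P088.R2.H961.B.T

variable {ι E : Type} [Fintype ι] [DecidableEq ι] [NormedAddCommGroup E] [NormedSpace ℝ E]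

/-- `∑ K_i²`. -/
def K2 (S : Dat ι E) : Op E := ∑ i, S.K i * S.K i

/-- `∑ (K_i^*)²`. -/
def K2s (S : Dat ι E) : Op E := ∑ i, S.Ks i * S.Ks i

/-- `S = D² + K² / 4`. -/
def So (S : Dat ι E) : Op E := S.D2 + (1 / 4 : ℝ) • K2 S

/-- `R = D . K`. -/
def Ro (S : Dat ι E) : Op E := ∑ i, S.D i * S.K i

/-- `R^*`. -/
def Rs (S : Dat ι E) : Op E := ∑ i, S.Ds i * S.Ks i

/-- `l . D`. -/
def lD (S : Dat ι E) : Op E := ∑ i, S.L i * S.D i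

/-- `l . D^*`. -/
def lDs (S : Dat ι E) : Op E := ∑ i, S.L i * S.Ds i

/-- `1 + E |q|²`. -/
def mu (S : Dat ι E) : Sm E := 1 + S.e * S.qq

/-- `[K_i, K_j^*] = 2 κ_ij`. -/
def kp (S : Dat ι E) (i j : ι) : Sm E :=
  S.φ2 i j + (S.l2 i j + 2 * (S.l1 i * S.l1 j)) * (S.e * S.qq)

/-- The four families of first order operators. -/
def Zo (S : Dat ι E) (k : Fin 4) (i : ι) : Op E :=
  match k with
  | 0 => S.D i
  | 1 => S.Ds i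
  | 2 => S.K i
  | 3 => S.Ks i

/-- Positivity of `E`, and `1 / μ`. -/
structure Wd (S : Dat ι E) where
  he : ∀ z, 0 < (S.e : E → ℝ) z
  mi : Sm E
  hmi : mu S * mi = 1

/-- The pointwise hypotheses on the zone `Z`: `μ³ ≤ ε² E`, `(N + μ)² ≤ E`, bounds of `l_i`,
`l_ij`, `κ_ij` (`N` is a function; no derivative of it is used). -/
structure Zn (S : Dat ι E) (Z : Set E) (N : Sm E) (Lam eps : ℝ) : Prop where
  N0 : ∀ z ∈ Z, 0 ≤ (N : E → ℝ) z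
  L1 : 1 ≤ Lam
  e0 : 0 < eps
  e1 : eps ≤ 1
  m3 : ∀ z ∈ Z, (mu S : E → ℝ) z ^ 3 ≤ eps ^ 2 * (S.e : E → ℝ) z
  m2 : ∀ z ∈ Z, ((N : E → ℝ) z + (mu S : E → ℝ) z) ^ 2 ≤ (S.e : E → ℝ) z
  l1 : ∀ z ∈ Z, ∀ i, |(S.l1 i : E → ℝ) z| ≤ Lam
  l2 : ∀ z ∈ Z, ∀ i j, |(S.l2 i j : E → ℝ) z| ≤ Lam
  kp : ∀ z ∈ Z, ∀ i j, |(kp S i j : E → ℝ) z| ≤ Lam * ((N : E → ℝ) z + (mu S : E → ℝ) z)

/-- `f` is supported in `Z`. -/
def Su (Z : Set E) (f : TE E) : Prop := tsupport f.fn ⊆ Z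

variable [MeasurableSpace E] [BorelSpace E] [FiniteDimensional ℝ E]
  (μ : Measure E) [μ.IsAddHaarMeasure]

/-- The list of bounds: weights `E²`, `E / μ`, `μ⁻²` for `b` and its first and second derivatives,
`(E / μ) (N + μ)²` for `c`, `1` for `Dc`, `D^*c`, `E / μ` for `Kc`, `K^*c`, `1 / (E μ)` for the second
derivatives of `c` without `K`, `μ / E` for `D² c`. -/
structure Bd (S : Dat ι E) (w : Wd S) (N : Sm E) (b c : TE E) (M MS : ℝ) : Prop where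
  b0 : nn μ (S.e * S.e) b ≤ M
  b1 : ∀ k i, nn μ (S.e * w.mi) (Zo S k i b) ≤ M
  b2 : ∀ k i k' j, nn μ (w.mi * w.mi) (Zo S k i (Zo S k' j b)) ≤ M
  c0 : nn μ (S.e * w.mi * (N + mu S) ^ 2) c ≤ M
  c1 : ∀ i, nn μ 1 (S.D i c) ≤ M ∧ nn μ 1 (S.Ds i c) ≤ M
  c1K : ∀ i, nn μ (S.e * w.mi) (S.K i c) ≤ M ∧ nn μ (S.e * w.mi) (S.Ks i c) ≤ M
  c2 : ∀ i j, nn μ (S.e' * w.mi) (S.D i (S.D j c)) ≤ M ∧
    nn μ (S.e' * w.mi) (S.D i (S.Ds j c)) ≤ M ∧ nn μ (S.e' * w.mi) (S.Ds i (S.D j c)) ≤ M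
  c3 : nn μ (S.e' * mu S) (S.D2 c) ≤ MS

end Vale.Agent.P088.R2.H516.B
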