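import Vale.Agent.P088.R2.H516.B.Pair
import Vale.Agent.P088.R2.H516.B.Dc

/-!
# Zone B1: bounds of the error terms
-/

open MeasureTheory Set

noncomputable section

namespace Vale.Agent.P088.R2.H516.B

open Vale.Agent.P088.R2.H464.EP Vale.Agent.P088.R2.H961.B.T

variable {ι E : Type} [Fintype ι] [DecidableEq ι] [NormedAddCommGroup E] [NormedSpace ℝ E]

/-! ## Pointwise facts -/

section pw
variable {S : Dat ι E}

theorem mu_apply (z : E) : (mu S : E → ℝ) z =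
    1 + (S.e : E → ℝ) z * ∑ k, (S.q k : E → ℝ) z * (S.q k : E → ℝ) z := by
  have h : ∀ (s : Finset ι), ((∑ k ∈ s, S.q k * S.q k : Sm E) : E → ℝ) z =
      ∑ k ∈ s, (S.q k : E → ℝ) z * (S.q k : E → ℝ) z := by
    intro s
    induction s using Finset.induction_on with
    | empty => simp
    | insert i s hi ih =>
      rw [Finset.sum_insert hi, Finset.sum_insert hi, ← ih]; rfl
  rw [← h]; rfl

variable (w : Wd S)

include w in
theorem mu_ge (z : E) : 1 ≤ (mu S : E → ℝ) z := by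
  rw [mu_apply]
  have h1 := w.he z
  have h2 : 0 ≤ ∑ k, (S.q k : E → ℝ) z * (S.q k : E → ℝ) z :=
    Finset.sum_nonneg fun k _ => mul_self_nonneg _
  nlinarith [mul_nonneg h1.le h2]

theorem mi_apply (z : E) : (w.mi : E → ℝ) z = ((mu S : E → ℝ) z)⁻¹ := by
  have h : (mu S : E → ℝ) z * (w.mi : E → ℝ) z = 1 := congrArg (fun f : Sm E => (f : E → ℝ) z) w.hmi
  have h1 := mu_ge w z
  field_simp
  linarith

include w in
theorem e'_apply (z : E) : (S.e' : E → ℝ) z = ((S.e : E → ℝ) z)⁻¹ := by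
  have h : (S.e : E → ℝ) z * (S.e' : E → ℝ) z = 1 :=
    congrArg (fun f : Sm E => (f : E → ℝ) z) S.inv
  have h1 := w.he z
  field_simp
  linarith

variable {Z : Set E} {N : Sm E} {Lam eps : ℝ} (hZ : Zn S Z N Lam eps)
include hZ

theorem Zn.e3 {z : E} (hz : z ∈ Z) : (mu S : E → ℝ) z ^ 3 ≤ (S.e : E → ℝ) z := by
  have h1 := hZ.m3 z hz
  have h2 : eps ^ 2 ≤ 1 := by nlinarith [hZ.e0, hZ.e1]
  by_contra h
  push Not at h
  have h3 : 0 ≤ (S.e : E → ℝ) z := by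
    nlinarith [hZ.m2 z hz, sq_nonneg ((N : E → ℝ) z + (mu S : E → ℝ) z)]
  nlinarith [mul_le_mul_of_nonneg_right h2 h3]

end pw

variable [MeasurableSpace E] [BorelSpace E] [FiniteDimensional ℝ E]
  (μ : Measure E) [μ.IsAddHaarMeasure]
  {S : Dat ι E} (w : Wd S) {Z : Set E} {N : Sm E} {Lam eps : ℝ} (hZ : Zn S Z N Lam eps)

omit [MeasurableSpace E] [BorelSpace E] [FiniteDimensional ℝ E] in
theorem wE0 (z : E) : 0 ≤ ((S.e * w.mi : Sm E) : E → ℝ) z := by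
  change 0 ≤ (S.e : E → ℝ) z * (w.mi : E → ℝ) z
  rw [mi_apply]
  have h1 := w.he z
  have h2 := mu_ge w z
  positivity

omit [MeasurableSpace E] [BorelSpace E] [FiniteDimensional ℝ E] in
theorem w20 (z : E) : 0 ≤ ((w.mi * w.mi : Sm E) : E → ℝ) z := mul_self_nonneg _

omit [MeasurableSpace E] [BorelSpace E] [FiniteDimensional ℝ E] in
theorem wi0 (z : E) : 0 ≤ (w.mi : E → ℝ) z := by
  rw [mi_apply]
  have h2 := mu_ge w z
  positivity

omit [MeasurableSpace E] [BorelSpace E] [FiniteDimensional ℝ E] in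
theorem wD0 (z : E) : 0 ≤ ((S.e' * w.mi : Sm E) : E → ℝ) z := by
  change 0 ≤ (S.e' : E → ℝ) z * (w.mi : E → ℝ) z
  rw [mi_apply, e'_apply w]
  have h1 := w.he z
  have h2 := mu_ge w z
  positivity

omit [MeasurableSpace E] [BorelSpace E] [FiniteDimensional ℝ E] in
include w in
theorem wS0 (z : E) : 0 ≤ ((S.e' * mu S : Sm E) : E → ℝ) z := by
  change 0 ≤ (S.e' : E → ℝ) z * (mu S : E → ℝ) z
  rw [e'_apply w]
  have h1 := w.he z
  have h2 := mu_ge w z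
  positivity

include hZ

/-- second order of `b` against first order. -/
theorem pr2 {x y : TE E} (hx : Su Z x) (hy : Su Z y) {A B : ℝ}
    (hA : nn μ (w.mi * w.mi) x ≤ A) (hB : nn μ (S.e * w.mi) y ≤ B) :
    |ip μ x y| ≤ eps / 2 * (A + B) := by
  have h := pair μ hx hy (s := eps) (t := 1) hZ.e0.le one_pos (fun z _ => w20 w z)
    (fun z _ => wE0 w z) (fun z hz => ?_) hA hB
  · simpa using h
  · change 1 ≤ eps ^ 2 * ((w.mi : E → ℝ) z * (w.mi : E → ℝ) z *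
      ((S.e : E → ℝ) z * (w.mi : E → ℝ) z))
    rw [mi_apply]
    have h1 := hZ.m3 z hz
    have h2 := mu_ge w z
    have h3 := w.he z
    set m := (mu S : E → ℝ) z
    have h4 : 0 < m := by linarith
    have e : eps ^ 2 * (m⁻¹ * m⁻¹ * ((S.e : E → ℝ) z * m⁻¹)) =
        (eps ^ 2 * (S.e : E → ℝ) z) / m ^ 3 := by
      field_simp
    rw [e, le_div_iff₀ (by positivity)]
    linarith

/-- `κ`-terms. -/
theorem pri {x y : TE E} (hx : Su Z x) (hy : Su Z y) {A B : ℝ}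
    (hA : nn μ w.mi x ≤ A) (hB : nn μ (S.e * w.mi) y ≤ B) :
    |ip μ x y| ≤ eps / 2 * (A + B) := by
  refine pr2 μ w hZ hx hy ((nn_mono μ hx hx fun z hz => ?_).trans hA) hB
  change (w.mi : E → ℝ) z * (w.mi : E → ℝ) z * x.fn z ^ 2 ≤ (w.mi : E → ℝ) z * x.fn z ^ 2
  have h1 : (w.mi : E → ℝ) z ≤ 1 := by
    rw [mi_apply]
    exact inv_le_one_of_one_le₀ (mu_ge w z)
  have h2 := wi0 w z
  have h3 := sq_nonneg (x.fn z)
  have h4 : (w.mi : E → ℝ) z * (w.mi : E → ℝ) z ≤ (w.mi : E → ℝ) z := by nlinarith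
  nlinarith

/-- Multiplication by `l_i`. -/
theorem nL {θ : Sm E} (hθ : ∀ z ∈ Z, 0 ≤ (θ : E → ℝ) z) {x : TE E} (hx : Su Z x) {A : ℝ}
    (hA : nn μ θ x ≤ A) (i : ι) : nn μ θ (S.L i x) ≤ Lam ^ 2 * A := by
  have h : nn μ θ (S.L i x) ≤ nn μ (Lam ^ 2 • θ) x := by
    refine nn_ml μ hx fun z hz => ?_
    change (θ : E → ℝ) z * (S.l1 i : E → ℝ) z ^ 2 ≤ Lam ^ 2 * (θ : E → ℝ) z
    have h1 := abs_le.1 (hZ.l1 z hz i)
    have h2 : (S.l1 i : E → ℝ) z ^ 2 ≤ Lam ^ 2 := sq_le_sq' h1.1 h1.2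
    nlinarith [mul_le_mul_of_nonneg_left h2 (hθ z hz)]
  rw [nn_smul_left] at h
  exact h.trans (mul_le_mul_of_nonneg_left hA (sq_nonneg _))

/-- Multiplication by `l_ij`. -/
theorem nLL {θ : Sm E} (hθ : ∀ z ∈ Z, 0 ≤ (θ : E → ℝ) z) {x : TE E} (hx : Su Z x) {A : ℝ}
    (hA : nn μ θ x ≤ A) (i j : ι) : nn μ θ (S.LL i j x) ≤ Lam ^ 2 * A := by
  have h : nn μ θ (S.LL i j x) ≤ nn μ (Lam ^ 2 • θ) x := by
    refine nn_ml μ hx fun z hz => ?_
    change (θ : E → ℝ) z * (S.l2 i j : E → ℝ) z ^ 2 ≤ Lam ^ 2 * (θ : E → ℝ) z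
    have h1 := abs_le.1 (hZ.l2 z hz i j)
    have h2 : (S.l2 i j : E → ℝ) z ^ 2 ≤ Lam ^ 2 := sq_le_sq' h1.1 h1.2
    nlinarith [mul_le_mul_of_nonneg_left h2 (hθ z hz)]
  rw [nn_smul_left] at h
  exact h.trans (mul_le_mul_of_nonneg_left hA (sq_nonneg _))

/-- Multiplication by `κ_ij`. -/
theorem nkp {θ θ' : Sm E} {x : TE E} (hx : Su Z x)
    (h : ∀ z ∈ Z, (θ : E → ℝ) z * ((N : E → ℝ) z + (mu S : E → ℝ) z) ^ 2 ≤ (θ' : E → ℝ) z)
    (hθ : ∀ z ∈ Z, 0 ≤ (θ : E → ℝ) z) {A : ℝ} (hA : nn μ θ' x ≤ A) (i j : ι) :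
    nn μ θ (ml (kp S i j) x) ≤ Lam ^ 2 * A := by
  have h' : nn μ θ (ml (kp S i j) x) ≤ nn μ (Lam ^ 2 • θ') x := by
    refine nn_ml μ hx fun z hz => ?_
    change (θ : E → ℝ) z * (kp S i j : E → ℝ) z ^ 2 ≤ Lam ^ 2 * (θ' : E → ℝ) z
    have h1 := abs_le.1 (hZ.kp z hz i j)
    have h2 : (kp S i j : E → ℝ) z ^ 2 ≤ (Lam * ((N : E → ℝ) z + (mu S : E → ℝ) z)) ^ 2 :=
      sq_le_sq' h1.1 h1.2
    have h3 := mul_le_mul_of_nonneg_left h2 (hθ z hz)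
    have h4 := mul_le_mul_of_nonneg_left (h z hz) (sq_nonneg Lam)
    nlinarith
  rw [nn_smul_left] at h'
  exact h'.trans (mul_le_mul_of_nonneg_left hA (sq_nonneg _))

omit hZ in
/-- Multiplication by `1 / E`. -/
theorem nEI {x : TE E} (hx : Su Z x) {A : ℝ} (hA : nn μ (S.e' * w.mi) x ≤ A) :
    nn μ (S.e * w.mi) (S.EI x) ≤ A := by
  refine (nn_ml μ hx fun z _ => ?_).trans hA
  change (S.e : E → ℝ) z * (w.mi : E → ℝ) z * (S.e' : E → ℝ) z ^ 2 ≤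
    (S.e' : E → ℝ) z * (w.mi : E → ℝ) z
  rw [e'_apply w]
  have h3 := w.he z
  apply le_of_eq
  field_simp

end Vale.Agent.P088.R2.H516.B
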