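import Vale.Agent.P088.R2.H516.B.Err

/-!
# Zone B1: bounds of the error terms, second part
-/

open MeasureTheory Set

noncomputable section

namespace Vale.Agent.P088.R2.H516.B

open Vale.Agent.P088.R2.H464.EP Vale.Agent.P088.R2.H961.B.T

variable {ι E : Type} [Fintype ι] [DecidableEq ι] [NormedAddCommGroup E] [NormedSpace ℝ E]

variable [MeasurableSpace E] [BorelSpace E] [FiniteDimensional ℝ E]
  (μ : Measure E) [μ.IsAddHaarMeasure]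
  {S : Dat ι E} (w : Wd S) {Z : Set E} {N : Sm E} {Lam eps : ℝ} (hZ : Zn S Z N Lam eps)
  {b c : TE E} (hb : Su Z b) (hc : Su Z c) {M MS : ℝ} (B : Bd μ S w N b c M MS)

include B in
theorem bM : 0 ≤ M := by
  have h := B.b0
  have h2 : 0 ≤ nn μ (S.e * S.e) b := ip_ml_nonneg μ (fun z => mul_self_nonneg _) b
  linarith

include hZ in
theorem Lam4 : Lam ^ 2 ≤ Lam ^ 4 := by
  have h := hZ.L1
  have h2 : 1 ≤ Lam ^ 2 := by nlinarith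
  nlinarith [sq_nonneg Lam]

include hZ hb B

/-- a sum of two second derivatives of `b` -/
theorem s2 {x y : TE E} (hx : Su Z x) (hy : Su Z y) {A : ℝ} (h1 : nn μ (w.mi * w.mi) x ≤ A)
    (h2 : nn μ (w.mi * w.mi) y ≤ A) : nn μ (w.mi * w.mi) (x + y) ≤ 4 * A := by
  have := nn_add μ hx hy (θ := w.mi * w.mi) (fun z _ => w20 w z)
  linarith

/-- the bound of `x1a` -/
theorem b_x1a (i j : ι) :
    |ip μ (S.Ds i (S.Ds i b)) (S.Ks j (S.Ks j b)) - ip μ (S.D i (S.D i b)) (S.K j (S.K j b))| ≤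
      eps * (64 * Lam ^ 4 * M) := by
  have hM := bM μ w B
  have hL := Lam4 hZ
  have e0 := hZ.e0
  have w2 : ∀ z ∈ Z, 0 ≤ ((w.mi * w.mi : Sm E) : E → ℝ) z := fun z _ => w20 w z
  have q0 : ∀ k k' : Fin 4, Su Z (Zo S k i (Zo S k' i b)) := fun k k' => (hb.Zo S k' i).Zo S k i
  have q : ∀ k1 k2 k3 k4 k5 k6 k7 k8 : Fin 4, Su Z (Zo S k1 i (Zo S k2 i b) +
      Zo S k3 i (Zo S k4 i b) + (Zo S k5 i (Zo S k6 i b) + Zo S k7 i (Zo S k8 i b))) ∧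
      nn μ (w.mi * w.mi) (Zo S k1 i (Zo S k2 i b) +
      Zo S k3 i (Zo S k4 i b) + (Zo S k5 i (Zo S k6 i b) + Zo S k7 i (Zo S k8 i b))) ≤ 16 * M := by
    intro k1 k2 k3 k4 k5 k6 k7 k8
    have a1 := s2 μ w hZ hb B (q0 k1 k2) (q0 k3 k4) (B.b2 k1 i k2 i) (B.b2 k3 i k4 i)
    have a2 := s2 μ w hZ hb B (q0 k5 k6) (q0 k7 k8) (B.b2 k5 i k6 i) (B.b2 k7 i k8 i)
    refine ⟨((q0 k1 k2).add (q0 k3 k4)).add ((q0 k5 k6).add (q0 k7 k8)), ?_⟩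
    have a3 := s2 μ w hZ hb B ((q0 k1 k2).add (q0 k3 k4)) ((q0 k5 k6).add (q0 k7 k8)) a1 a2
    linarith
  obtain ⟨p1, p2⟩ := q 1 0 1 1 0 1 1 1
  obtain ⟨r1, r2⟩ := q 0 0 1 0 0 0 0 1
  have n1 := nL μ hZ w2 p1 p2 j
  have n2 := nL μ hZ w2 r1 r2 j
  have m1 := pr2 μ w hZ (p1.ml (S.l1 j)) (hb.Ks S j) n1 (B.b1 3 j)
  have m2 := pr2 μ w hZ (r1.ml (S.l1 j)) (hb.K S j) n2 (B.b1 2 j)
  rw [ip_comm] at m2
  rw [x1a S μ i j b]
  simp only [Zo] at m1 m2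
  have m1' : |ip μ (S.L j (S.Ds i (S.D i b) + S.Ds i (S.Ds i b) + (S.D i (S.Ds i b) +
      S.Ds i (S.Ds i b)))) (S.Ks j b)| ≤ eps / 2 * (Lam ^ 2 * (16 * M) + M) := m1
  have m2' : |ip μ (S.K j b) (S.L j (S.D i (S.D i b) + S.Ds i (S.D i b) + (S.D i (S.D i b) +
      S.D i (S.Ds i b))))| ≤ eps / 2 * (Lam ^ 2 * (16 * M) + M) := m2
  have hL2 : M ≤ Lam ^ 4 * M := by
    have : (1 : ℝ) ≤ Lam ^ 4 := by nlinarith [hZ.L1, sq_nonneg Lam]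
    nlinarith
  have hL3 : Lam ^ 2 * M ≤ Lam ^ 4 * M := mul_le_mul_of_nonneg_right hL hM
  have f : eps / 2 * (Lam ^ 2 * (16 * M) + M) ≤ eps / 2 * (17 * (Lam ^ 4 * M)) :=
    mul_le_mul_of_nonneg_left (by linarith) (by linarith)
  have g := mul_nonneg e0.le (le_trans hM hL2)
  have a1 := abs_le.1 m1'
  have a2 := abs_le.1 m2'
  rw [abs_le]
  constructor <;> nlinarith [a1.1, a1.2, a2.1, a2.2]

omit hZ hb in
include hc in
/-- `∫ (E / μ) c² ≤ M`. -/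
theorem nnc (hZ' : Zn S Z N Lam eps) : nn μ (S.e * w.mi) c ≤ M := by
  refine (nn_mono μ hc hc fun z hz => ?_).trans B.c0
  change (S.e : E → ℝ) z * (w.mi : E → ℝ) z * c.fn z ^ 2 ≤
    (S.e : E → ℝ) z * (w.mi : E → ℝ) z * ((N : E → ℝ) z + (mu S : E → ℝ) z) ^ 2 * c.fn z ^ 2
  have h1 : 0 ≤ (S.e : E → ℝ) z * (w.mi : E → ℝ) z := wE0 w z
  have h2 := mu_ge w z
  have h3 : 1 ≤ ((N : E → ℝ) z + (mu S : E → ℝ) z) ^ 2 := by nlinarith [hZ'.N0 z hz]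
  have h4 := mul_le_mul_of_nonneg_left h3 h1
  nlinarith [mul_le_mul_of_nonneg_right h4 (sq_nonneg (c.fn z))]

omit hb B in
/-- `κ` times `c` -/
theorem nkc (hc : Su Z c) {A : ℝ}
    (hA : nn μ (S.e * w.mi * (N + mu S) ^ 2) c ≤ A) (i j : ι) :
    nn μ (S.e * w.mi) (ml (kp S i j) c) ≤ Lam ^ 2 * A :=
  nkp μ hZ hc (fun _ _ => le_rfl) (fun z _ => wE0 w z) hA i j

omit hb B in
/-- `κ` times `b` -/
theorem nkb {x : TE E} (hx : Su Z x) {A : ℝ} (hA : nn μ (S.e * S.e) x ≤ A) (i j : ι) :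
    nn μ (S.e * w.mi) (ml (kp S i j) x) ≤ Lam ^ 2 * A := by
  refine nkp μ hZ hx (fun z hz => ?_) (fun z _ => wE0 w z) hA i j
  change (S.e : E → ℝ) z * (w.mi : E → ℝ) z * ((N : E → ℝ) z + (mu S : E → ℝ) z) ^ 2 ≤
    (S.e : E → ℝ) z * (S.e : E → ℝ) z
  have h1 := w.he z
  have h2 := mu_ge w z
  have h3 := hZ.m2 z hz
  have h4 : (w.mi : E → ℝ) z ≤ 1 := by rw [mi_apply]; exact inv_le_one_of_one_le₀ h2
  have h5 := wi0 w z
  have h6 : (w.mi : E → ℝ) z * ((N : E → ℝ) z + (mu S : E → ℝ) z) ^ 2 ≤ 1 * (S.e : E → ℝ) z :=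
    mul_le_mul h4 h3 (sq_nonneg _) zero_le_one
  nlinarith [mul_le_mul_of_nonneg_left h6 h1.le]

omit hb B in
/-- `κ` times a first derivative -/
theorem nk1 {x : TE E} (hx : Su Z x) {A : ℝ} (hA : nn μ (S.e * w.mi) x ≤ A) (i j : ι) :
    nn μ w.mi (ml (kp S i j) x) ≤ Lam ^ 2 * A := by
  refine nkp μ hZ hx (fun z hz => ?_) (fun z _ => wi0 w z) hA i j
  change (w.mi : E → ℝ) z * ((N : E → ℝ) z + (mu S : E → ℝ) z) ^ 2 ≤
    (S.e : E → ℝ) z * (w.mi : E → ℝ) z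
  have h3 := hZ.m2 z hz
  nlinarith [mul_le_mul_of_nonneg_left h3 (wi0 w z)]

omit hb B in
/-- `E / μ` dominates `μ⁻²`. -/
theorem n21 {x : TE E} (hx : Su Z x) : nn μ (w.mi * w.mi) x ≤ nn μ (S.e * w.mi) x := by
  refine nn_mono μ hx hx fun z hz => ?_
  change (w.mi : E → ℝ) z * (w.mi : E → ℝ) z * x.fn z ^ 2 ≤
    (S.e : E → ℝ) z * (w.mi : E → ℝ) z * x.fn z ^ 2
  have h2 := mu_ge w z
  have h4 : (w.mi : E → ℝ) z ≤ 1 := by rw [mi_apply]; exact inv_le_one_of_one_le₀ h2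
  have h6 : 1 ≤ (S.e : E → ℝ) z := by
    have := hZ.m2 z hz
    have h7 : 1 ≤ ((N : E → ℝ) z + (mu S : E → ℝ) z) ^ 2 := by nlinarith [hZ.N0 z hz]
    linarith
  have h5 := wi0 w z
  have h8 : (w.mi : E → ℝ) z * (w.mi : E → ℝ) z ≤ (S.e : E → ℝ) z * (w.mi : E → ℝ) z := by
    nlinarith
  exact mul_le_mul_of_nonneg_right h8 (sq_nonneg _)

/-- the bound of `x1b` -/
theorem b_x1b (i j : ι) :
    |ip μ (S.Ks i (S.Ks i b)) (S.Ks j (S.Ks j b)) - ip μ (S.K i (S.K i b)) (S.K j (S.K j b))| ≤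
      eps * (64 * Lam ^ 4 * M) := by
  have hM := bM μ w B
  have hL := Lam4 hZ
  have e0 := hZ.e0
  have m1 := pr2 μ w hZ ((hb.Ks S j).K S i) (hb.ml (kp S j i)) (B.b2 2 i 3 j)
    (nkb μ w hZ hb B.b0 j i)
  have m2 := pri μ w hZ ((hb.Ks S i).ml (kp S j i)) (hb.Ks S j)
    (nk1 μ w hZ (hb.Ks S i) (B.b1 3 i) j i) (B.b1 3 j)
  have m3 := pri μ w hZ ((hb.K S i).ml (kp S i j)) (hb.K S j)
    (nk1 μ w hZ (hb.K S i) (B.b1 2 i) i j) (B.b1 2 j)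
  have m4 := pr2 μ w hZ ((hb.K S j).Ks S i) (hb.ml (kp S i j)) (B.b2 3 i 2 j)
    (nkb μ w hZ hb B.b0 i j)
  rw [ip_comm] at m1 m3
  rw [x1b S μ i j b]
  have hL2 : M ≤ Lam ^ 4 * M := by
    have : (1 : ℝ) ≤ Lam ^ 4 := by nlinarith [hZ.L1, sq_nonneg Lam]
    nlinarith
  have hL3 : Lam ^ 2 * M ≤ Lam ^ 4 * M := mul_le_mul_of_nonneg_right hL hM
  have f : eps / 2 * (M + Lam ^ 2 * M) ≤ eps / 2 * (2 * (Lam ^ 4 * M)) :=
    mul_le_mul_of_nonneg_left (by linarith) (by linarith)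
  have g := mul_nonneg e0.le (le_trans hM hL2)
  have a1 := abs_le.1 m1
  have a2 := abs_le.1 m2
  have a3 := abs_le.1 m3
  have a4 := abs_le.1 m4
  rw [abs_le]
  constructor <;> nlinarith [a1.1, a1.2, a2.1, a2.2, a3.1, a3.2, a4.1, a4.2]

include hc

/-- the bound of `x2` -/
theorem b_x2 (i j : ι) :
    |ip μ (S.Ks j (S.Ks j b)) (S.Ds i (S.Ks i c)) - ip μ (S.D i (S.K i b)) (S.K j (S.K j c))| ≤
      eps * (64 * Lam ^ 4 * M) := by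
  have hM := bM μ w B
  have hL := Lam4 hZ
  have e0 := hZ.e0
  have w2 : ∀ z ∈ Z, 0 ≤ ((w.mi * w.mi : Sm E) : E → ℝ) z := fun z _ => w20 w z
  have wE : ∀ z ∈ Z, 0 ≤ ((S.e * w.mi : Sm E) : E → ℝ) z := fun z _ => wE0 w z
  have c1 := s2 μ w hZ hb B ((hb.Ks S j).D S i) ((hb.Ks S j).Ds S i) (B.b2 0 i 3 j) (B.b2 1 i 3 j)
  have c2 := s2 μ w hZ hb B ((hb.D S i).K S i) ((hb.Ds S i).K S i) (B.b2 2 i 0 i) (B.b2 2 i 1 i)
  have c3 := nn_add μ (hb.D S i) (hb.Ds S i) wE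
  have c3' : nn μ (S.e * w.mi) (S.D i b + S.Ds i b) ≤ 4 * M := by
    have a := B.b1 0 i
    have a' := B.b1 1 i
    simp only [Zo] at a a'
    linarith
  have c4 := nLL μ hZ w2 ((hb.D S i).add (hb.Ds S i))
    ((n21 μ w hZ ((hb.D S i).add (hb.Ds S i))).trans c3') i j
  have c5 := nL μ hZ w2 (((hb.D S i).K S i).add ((hb.Ds S i).K S i)) c2 j
  have c6 := nn_add μ (x := S.L j (S.K i (S.D i b) + S.K i (S.Ds i b)))
    (y := S.LL i j (S.D i b + S.Ds i b))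
    ((((hb.D S i).K S i).add ((hb.Ds S i).K S i)).ml (S.l1 j))
    (((hb.D S i).add (hb.Ds S i)).ml (S.l2 i j)) w2
  have m1 := pr2 μ w hZ (x := S.L j (S.D i (S.Ks j b) + S.Ds i (S.Ks j b))) (y := S.Ks i c)
    ((((hb.Ks S j).D S i).add ((hb.Ks S j).Ds S i)).ml (S.l1 j))
    (hc.Ks S i) (nL μ hZ w2 (((hb.Ks S j).D S i).add ((hb.Ks S j).Ds S i)) c1 j) (B.c1K i).2
  have m2 := pr2 μ w hZ (x := S.D i (S.Ks j b)) (y := ml (kp S j i) c) ((hb.Ks S j).D S i)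
    (hc.ml (kp S j i)) (B.b2 0 i 3 j) (nkc μ w hZ hc B.c0 j i)
  have m3 := pri μ w hZ (x := ml (kp S i j) (S.D i b)) (y := S.K j c) ((hb.D S i).ml (kp S i j))
    (hc.K S j) (nk1 μ w hZ (hb.D S i) (B.b1 0 i) i j) (B.c1K j).1
  have m4 := pr2 μ w hZ (x := S.L j (S.K i (S.D i b) + S.K i (S.Ds i b)) +
      S.LL i j (S.D i b + S.Ds i b)) (y := S.K j c)
    (((((hb.D S i).K S i).add ((hb.Ds S i).K S i)).ml (S.l1 j)).add
      (((hb.D S i).add (hb.Ds S i)).ml (S.l2 i j))) (hc.K S j) c6 (B.c1K j).1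
  rw [x2 S μ i j b c]
  have hL2 : M ≤ Lam ^ 4 * M := by
    have : (1 : ℝ) ≤ Lam ^ 4 := by nlinarith [hZ.L1, sq_nonneg Lam]
    nlinarith
  have hL3 : Lam ^ 2 * M ≤ Lam ^ 4 * M := mul_le_mul_of_nonneg_right hL hM
  set Q := Lam ^ 4 * M with hQ
  have n1 := m1.trans (mul_le_mul_of_nonneg_left
    (show Lam ^ 2 * (4 * M) + M ≤ 5 * Q by linarith) (by linarith : 0 ≤ eps / 2))
  have n2 := m2.trans (mul_le_mul_of_nonneg_left
    (show M + Lam ^ 2 * M ≤ 2 * Q by linarith) (by linarith : 0 ≤ eps / 2))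
  have n3 := m3.trans (mul_le_mul_of_nonneg_left
    (show Lam ^ 2 * M + M ≤ 2 * Q by linarith) (by linarith : 0 ≤ eps / 2))
  have n4 := m4.trans (mul_le_mul_of_nonneg_left
    (show 2 * nn μ (w.mi * w.mi) (S.L j (S.K i (S.D i b) + S.K i (S.Ds i b))) +
      2 * nn μ (w.mi * w.mi) (S.LL i j (S.D i b + S.Ds i b)) + M ≤ 17 * Q by linarith)
    (by linarith : 0 ≤ eps / 2))
  have g := mul_nonneg e0.le (le_trans hM hL2)
  have a1 := abs_le.1 n1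
  have a2 := abs_le.1 n2
  have a3 := abs_le.1 n3
  have a4 := abs_le.1 n4
  have hQ2 : eps * (64 * Lam ^ 4 * M) = 64 * (eps * Q) := by rw [hQ]; ring
  rw [abs_le, hQ2]
  constructor <;> linarith [a1.1, a1.2, a2.1, a2.2, a3.1, a3.2, a4.1, a4.2]

/-- the bound of `e2` -/
theorem b_e2 (i j : ι) : |ip μ (S.K i (S.K i b)) (S.L j (S.D j c))| ≤
      eps * (64 * Lam ^ 4 * M) := by
  have hM := bM μ w B
  have hL := Lam4 hZ
  have e0 := hZ.e0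
  have w2 : ∀ z ∈ Z, 0 ≤ ((w.mi * w.mi : Sm E) : E → ℝ) z := fun z _ => w20 w z
  have wE : ∀ z ∈ Z, 0 ≤ ((S.e * w.mi : Sm E) : E → ℝ) z := fun z _ => wE0 w z
  have hnc := nnc μ w hc B hZ
  have c1 := s2 μ w hZ hb B ((hb.K S i).D S j) ((hb.K S i).Ds S j) (B.b2 0 j 2 i) (B.b2 1 j 2 i)
  have m1 := pr2 μ w hZ (x := S.Ds j (S.K i b)) (y := S.L j (S.Ks i c)) ((hb.K S i).Ds S j)
    ((hc.Ks S i).ml (S.l1 j)) (B.b2 1 j 2 i) (nL μ hZ wE (hc.Ks S i) (B.c1K i).2 j)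
  have m2 := pr2 μ w hZ (x := S.Ds j (S.K i b)) (y := S.LL i j c) ((hb.K S i).Ds S j)
    (hc.ml (S.l2 i j)) (B.b2 1 j 2 i) (nLL μ hZ wE hc hnc i j)
  have h3 : Su Z (S.L i (S.D j (S.K i b) + S.Ds j (S.K i b))) :=
    (((hb.K S i).D S j).add ((hb.K S i).Ds S j)).ml (S.l1 i)
  have m3 := pr2 μ w hZ (x := S.L j (S.L i (S.D j (S.K i b) + S.Ds j (S.K i b)))) (y := c)
    (h3.ml (S.l1 j)) hc
    (nL μ hZ w2 h3 (nL μ hZ w2 (((hb.K S i).D S j).add ((hb.K S i).Ds S j)) c1 i) j) hnc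
  rw [e2 S μ i j b c]
  have hL2 : M ≤ Lam ^ 4 * M := by
    have : (1 : ℝ) ≤ Lam ^ 4 := by nlinarith [hZ.L1, sq_nonneg Lam]
    nlinarith
  have hL3 : Lam ^ 2 * M ≤ Lam ^ 4 * M := mul_le_mul_of_nonneg_right hL hM
  set Q := Lam ^ 4 * M with hQ
  have n1 := m1.trans (mul_le_mul_of_nonneg_left
    (show M + Lam ^ 2 * M ≤ 2 * Q by linarith) (by linarith : 0 ≤ eps / 2))
  have n2 := m2.trans (mul_le_mul_of_nonneg_left
    (show M + Lam ^ 2 * M ≤ 2 * Q by linarith) (by linarith : 0 ≤ eps / 2))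
  have n3 := m3.trans (mul_le_mul_of_nonneg_left
    (show Lam ^ 2 * (Lam ^ 2 * (4 * M)) + M ≤ 5 * Q by
      have : Lam ^ 2 * (Lam ^ 2 * (4 * M)) = 4 * Q := by rw [hQ]; ring
      linarith) (by linarith : 0 ≤ eps / 2))
  have g := mul_nonneg e0.le (le_trans hM hL2)
  have a1 := abs_le.1 n1
  have a2 := abs_le.1 n2
  have a3 := abs_le.1 n3
  have hQ2 : eps * (64 * Lam ^ 4 * M) = 64 * (eps * Q) := by rw [hQ]; ring
  rw [abs_le, hQ2]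
  constructor <;> linarith [a1.1, a1.2, a2.1, a2.2, a3.1, a3.2]

end Vale.Agent.P088.R2.H516.B
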