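import Vale.Agent.P088.R2.H516.B.Fin
import Vale.Agent.P088.R2.H593.B.Te

/-!
# Zone B1: the error term of helper593's identity
-/

open MeasureTheory Set

noncomputable section

namespace Vale.Agent.P088.R2.H516.B

open Vale.Agent.P088.R2.H464.EP Vale.Agent.P088.R2.H961.B.T Vale.Agent.P088.HY.H593W

variable {ι E : Type} [Fintype ι] [DecidableEq ι] [NormedAddCommGroup E] [NormedSpace ℝ E]

variable [MeasurableSpace E] [BorelSpace E] [FiniteDimensional ℝ E]
  (μ : Measure E) [μ.IsAddHaarMeasure]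

theorem errT_eq (S : Dat ι E) (b c : TE E) : errT μ S b c = H593.B.Err μ S b c := by
  simp only [errT, H593.B.Err, oLDD, oD2, oDs2, oR, oRs]

variable {S : Dat ι E} (w : Wd S) {Z : Set E} {N : Sm E} {Lam eps : ℝ} (hZ : Zn S Z N Lam eps)
  {b c : TE E} (hb : Su Z b) (hc : Su Z c) {M MS : ℝ} (B : Bd μ S w N b c M MS)
include hZ hb hc B

/-- The bound of helper593's `Err`. -/
theorem Err_le {K : ℝ} (hK : 0 < K) (hS : MS ≥ 0) : |H593.B.Err μ S b c| ≤ K * MS +
    12800 * ((Fintype.card ι : ℝ) + 1) ^ 4 * Lam ^ 4 * (K⁻¹ + eps) * M := by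
  rw [← errT_eq]
  exact err_le μ w hZ hb hc B hK hS

end Vale.Agent.P088.R2.H516.B
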