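import Vale.Agent.P088.R2.H516.B.Err2

/-!
# Zone B1: all error terms of the exact identity
-/

open MeasureTheory Set

noncomputable section

namespace Vale.Agent.P088.R2.H516.B

open Vale.Agent.P088.R2.H464.EP Vale.Agent.P088.R2.H961.B.T Vale.Agent.P088.HY.H593W

variable {ι E : Type} [Fintype ι] [DecidableEq ι] [NormedAddCommGroup E] [NormedSpace ℝ E]

variable [MeasurableSpace E] [BorelSpace E] [FiniteDimensional ℝ E]
  (μ : Measure E) [μ.IsAddHaarMeasure]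

/-! ## The operators of the identity -/

section ops
variable (S : Dat ι E)

theorem oLDD (x : TE E) : (S.osc μ).LDD x = lD S x := by
  rw [Osc.LDD_apply, lD, LinearMap.sum_apply]
  rfl

theorem oDs2 (x : TE E) : (S.osc μ).Ds2 x = S.Ds2 x := by
  rw [Osc.Ds2_apply]
  simp only [Dat.Ds2, LinearMap.sum_apply]
  rfl

theorem oR (x : TE E) : (S.osc μ).R S.EI x = Ro S x := by
  rw [Osc.R_apply, oD2, oLDD, Osc.Dv_apply, Ro, lD, LinearMap.sum_apply, LinearMap.sum_apply,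
    map_sum, Finset.smul_sum, ← Finset.sum_add_distrib]
  refine Finset.sum_congr rfl fun i _ => ?_
  have g1 : (S.osc μ).v i x = S.K i x - (1 / 2 : ℝ) • S.L i (S.EI (S.D2 x)) := by
    change S.v i x = _
    rw [Dat.v]
    rfl
  have g2 : S.D i (S.L i (S.EI (S.D2 x))) = S.EI (S.L i (S.D i (S.D2 x))) := by
    have a1 : ∀ y, S.D i (S.L i y) = S.L i (S.D i y) := fun y => dL S i i y
    have a2 : ∀ y, S.D i (S.EI y) = S.EI (S.D i y) := fun y => LinearMap.congr_fun (S.D_EI i) y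
    have a3 : ∀ y, S.L i (S.EI y) = S.EI (S.L i y) := fun y =>
      LinearMap.congr_fun (mlc (S.l1 i) S.e') y
    rw [a1, a2, a3]
  rw [g1]
  change S.D i _ + _ = _
  rw [map_sub, map_smul, g2]
  change _ - _ + (1 / 2 : ℝ) • S.EI (S.L i (S.D i (S.D2 x))) = _
  rw [sub_add_cancel]
  rfl

theorem oRs (x : TE E) : (S.osc μ).Rs S.EI x = Rs S x := by
  have h1 : Adj μ ((S.osc μ).R S.EI) ((S.osc μ).Rs S.EI) := fun f g => by
    rw [Osc.R_apply, Osc.Rs_apply]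
    simp only [map_add, map_smul, LinearMap.add_apply, LinearMap.smul_apply, smul_eq_mul]
    have a1 : ip μ ((S.osc μ).Dv f) g = ip μ f ((S.osc μ).Dsvs g) := (S.osc μ).adDv f g
    have a2 : ip μ (S.EI ((S.osc μ).LDD ((S.osc μ).D2 f))) g =
        ip μ f (S.EI ((S.osc μ).LS ((S.osc μ).Ds2 g))) := by
      have hI := osc_inv S μ
      have b1 : ip μ (S.EI ((S.osc μ).LDD ((S.osc μ).D2 f))) g =
        ip μ ((S.osc μ).LDD ((S.osc μ).D2 f)) (S.EI g) := ip_ml μ S.e' _ _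
      have b2 : ip μ ((S.osc μ).LDD ((S.osc μ).D2 f)) (S.EI g) =
        ip μ ((S.osc μ).D2 f) ((S.osc μ).LS (S.EI g)) := (S.osc μ).adLDD _ _
      have b3 : ip μ ((S.osc μ).D2 f) ((S.osc μ).LS (S.EI g)) =
        ip μ f ((S.osc μ).Ds2 ((S.osc μ).LS (S.EI g))) := (S.osc μ).adD2 _ _
      rw [b1, b2, b3, (S.osc μ).Ds2LS, ← hI.Ds2, ← hI.LS]
    rw [a1, a2]
  have h2 : Adj μ (Ro S) (Rs S) := by
    refine Adj.sum fun i _ => ?_
    have := (S.adj_D μ i).mul (S.adj_K μ i)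
    have e : S.Ks i * S.Ds i = S.Ds i * S.Ks i :=
      adj_eq this ((S.adj_K μ i).mul (S.adj_D μ i)) (S.K_D i i).symm
    rwa [e] at this
  have h3 : (S.osc μ).R S.EI = Ro S := LinearMap.ext fun x => oR μ S x
  have h4 := adj_eq h1 h2 h3
  rw [h4]

/-- The error terms of the identity. -/
def errT (b c : TE E) : ℝ :=
  (S.osc μ).Er S.EI b c - ip μ (K2 S b) ((S.osc μ).LDD c) -
    2 * ip μ (S.EI ((S.osc μ).LDD ((S.osc μ).D2 c))) ((S.osc μ).LDD c) +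
    ((1 / 2) * ip μ ((S.osc μ).Ds2 b) (K2s S b) + (1 / 16) * ip μ (K2s S b) (K2s S b) -
      (1 / 2) * ip μ ((S.osc μ).D2 b) (K2 S b) - (1 / 16) * ip μ (K2 S b) (K2 S b)) +
    (1 / 2) * (ip μ (K2s S b) ((S.osc μ).Rs S.EI c) - ip μ ((S.osc μ).R S.EI b) (K2 S c))

/-- THE IDENTITY on test functions. -/
theorem T_te (b c : TE E) :
    ip μ (S.Ds2 b + (1 / 4 : ℝ) • K2s S b + Rs S c) (S.Ds2 b + (1 / 4 : ℝ) • K2s S b + Rs S c) +
    ip μ (Ro S b - So S c) (Ro S b - So S c) =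
    ip μ (So S b + (2 : ℝ) • lD S c) (So S b + (2 : ℝ) • lD S c) +
    ip μ (Ro S b) (Ro S b) + ip μ (So S c) (So S c) +
    ip μ (Ro S c + (2 : ℝ) • lD S c) (Ro S c + (2 : ℝ) • lD S c) +
    (S.osc μ).Q ((S.osc μ).bp S.EI b c) c + (S.osc μ).cv c + errT μ S b c := by
  have h := (osc_inv S μ).T_eq (K2 S) (K2s S) b c
  have e : ∀ x, So S x = S.D2 x + (1 / 4 : ℝ) • K2 S x := fun x => rfl
  have hip : ∀ x y, (S.osc μ).ip x y = ip μ x y := fun _ _ => rfl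
  simp only [hip, oD2, oDs2, oR, oRs, oLDD, errT, e] at h ⊢
  rw [h]
  ring

end ops

variable {S : Dat ι E} (w : Wd S) {Z : Set E} {N : Sm E} {Lam eps : ℝ} (hZ : Zn S Z N Lam eps)
  {b c : TE E} (hb : Su Z b) (hc : Su Z c) {M MS : ℝ} (B : Bd μ S w N b c M MS)
include hZ hb hc B

theorem b_gg : nn μ (S.e * w.mi) (gg S b c) ≤
    25600 * ((Fintype.card ι : ℝ) + 1) ^ 4 * Lam ^ 4 * M := by
  have hM := bM μ w B
  have hL := Lam4 hZ
  set n : ℝ := (Fintype.card ι : ℝ) with hn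
  have hn0 : 0 ≤ n := Nat.cast_nonneg _
  have wE : ∀ z ∈ Z, 0 ≤ ((S.e * w.mi : Sm E) : E → ℝ) z := fun z _ => wE0 w z
  have wD : ∀ z ∈ Z, 0 ≤ ((S.e' * w.mi : Sm E) : E → ℝ) z := fun z _ => wD0 w z
  have hL2 : M ≤ Lam ^ 4 * M := by
    have : (1 : ℝ) ≤ Lam ^ 4 := by nlinarith [hZ.L1, sq_nonneg Lam]
    nlinarith
  have hL3 : Lam ^ 2 * M ≤ Lam ^ 4 * M := mul_le_mul_of_nonneg_right hL hM
  have hnc := nnc μ w hc B hZ
  -- single sums
  have one : ∀ (f : ι → TE E) (r : ℝ), r ^ 2 ≤ 64 → (∀ i, Su Z (f i)) →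
      (∀ i, nn μ (S.e * w.mi) (f i) ≤ Lam ^ 4 * M) →
      Su Z (r • ∑ i, f i) ∧ nn μ (S.e * w.mi) (r • ∑ i, f i) ≤ 64 * (n + 1) ^ 4 * (Lam ^ 4 * M) := by
    intro f r hr hf hM'
    refine ⟨(Su.sum fun i _ => hf i).smul r, ?_⟩
    rw [nn_smul]
    have h1 := nn_sum μ Finset.univ (fun i _ => hf i) wE (fun i _ => hM' i)
    rw [Finset.card_univ, ← hn] at h1
    have hQ : 0 ≤ Lam ^ 4 * M := hM.trans hL2
    have h2 : n ^ 2 * (Lam ^ 4 * M) ≤ (n + 1) ^ 4 * (Lam ^ 4 * M) := by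
      refine mul_le_mul_of_nonneg_right ?_ hQ
      nlinarith [sq_nonneg n, mul_nonneg hn0 hn0, pow_nonneg hn0 3, pow_nonneg hn0 4]
    have h3 : 0 ≤ nn μ (S.e * w.mi) (∑ i, f i) :=
      nn_nonneg μ (Su.sum fun i _ => hf i) wE
    calc r ^ 2 * nn μ (S.e * w.mi) (∑ i, f i) ≤ 64 * nn μ (S.e * w.mi) (∑ i, f i) :=
          mul_le_mul_of_nonneg_right hr h3
      _ ≤ 64 * ((n + 1) ^ 4 * (Lam ^ 4 * M)) := by linarith
      _ = _ := by ring
  have two : ∀ (f : ι → ι → TE E) (r : ℝ), r ^ 2 ≤ 16 → (∀ i j, Su Z (f i j)) →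
      (∀ i j, nn μ (S.e * w.mi) (f i j) ≤ Lam ^ 4 * M) →
      Su Z (r • ∑ i, ∑ j, f i j) ∧
        nn μ (S.e * w.mi) (r • ∑ i, ∑ j, f i j) ≤ 64 * (n + 1) ^ 4 * (Lam ^ 4 * M) := by
    intro f r hr hf hM'
    have hs : ∀ i, Su Z (∑ j, f i j) := fun i => Su.sum fun j _ => hf i j
    refine ⟨(Su.sum fun i _ => hs i).smul r, ?_⟩
    rw [nn_smul]
    have h0 : ∀ i, nn μ (S.e * w.mi) (∑ j, f i j) ≤ n ^ 2 * (Lam ^ 4 * M) := fun i => by
      have := nn_sum μ Finset.univ (fun j _ => hf i j) wE (fun j _ => hM' i j)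
      rwa [Finset.card_univ] at this
    have h1 := nn_sum μ Finset.univ (fun i _ => hs i) wE (fun i _ => h0 i)
    rw [Finset.card_univ, ← hn] at h1
    have hQ : 0 ≤ Lam ^ 4 * M := hM.trans hL2
    have h2 : n ^ 2 * (n ^ 2 * (Lam ^ 4 * M)) ≤ (n + 1) ^ 4 * (Lam ^ 4 * M) := by
      rw [← mul_assoc]
      refine mul_le_mul_of_nonneg_right ?_ hQ
      nlinarith [sq_nonneg n, mul_nonneg hn0 hn0, pow_nonneg hn0 3, pow_nonneg hn0 4]
    have h3 : 0 ≤ nn μ (S.e * w.mi) (∑ i, ∑ j, f i j) :=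
      nn_nonneg μ (Su.sum fun i _ => hs i) wE
    calc r ^ 2 * nn μ (S.e * w.mi) (∑ i, ∑ j, f i j) ≤
          64 * nn μ (S.e * w.mi) (∑ i, ∑ j, f i j) :=
          mul_le_mul_of_nonneg_right (by linarith) h3
      _ ≤ 64 * ((n + 1) ^ 4 * (Lam ^ 4 * M)) := by linarith
      _ = _ := by ring
  -- the pieces
  have LLM : ∀ {x : TE E} (_ : Su Z x) (_ : nn μ (S.e' * w.mi) x ≤ M) (i j : ι),
      Su Z (S.EI (S.L i (S.L j x))) ∧ nn μ (S.e * w.mi) (S.EI (S.L i (S.L j x))) ≤ Lam ^ 4 * M := by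
    intro x hx hA i j
    have h1 : Su Z (S.L j x) := hx.ml _
    have h2 : Su Z (S.L i (S.L j x)) := h1.ml _
    refine ⟨h2.ml _, nEI μ w h2 ?_⟩
    refine (nL μ hZ wD h1 (nL μ hZ wD hx hA j) i).trans (le_of_eq (by ring))
  obtain ⟨u1, v1⟩ := one (fun j => S.L j (S.D j b)) 8 (by norm_num) (fun j => (hb.D S j).ml _)
    (fun j => (nL μ hZ wE (hb.D S j) (B.b1 0 j) j).trans hL3)
  obtain ⟨u2, v2⟩ := two (fun j i => S.EI (S.L j (S.L i (S.D j (S.Ds i c))))) 4 (by norm_num)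
    (fun j i => (LLM ((hc.Ds S i).D S j) (B.c2 j i).2.1 j i).1)
    (fun j i => (LLM ((hc.Ds S i).D S j) (B.c2 j i).2.1 j i).2)
  obtain ⟨u3, v3⟩ := two (fun j i => S.EI (S.L j (S.L i (S.D j (S.D i c))))) 2 (by norm_num)
    (fun j i => (LLM ((hc.D S i).D S j) (B.c2 j i).1 j i).1)
    (fun j i => (LLM ((hc.D S i).D S j) (B.c2 j i).1 j i).2)
  obtain ⟨u4, v4⟩ := one (fun i => S.L i (S.K i c)) 2 (by norm_num) (fun j => (hc.K S j).ml _)
    (fun j => (nL μ hZ wE (hc.K S j) (B.c1K j).1 j).trans hL3)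
  obtain ⟨u5, v5⟩ := two (fun i k => S.EI (S.L i (S.L i (S.D k (S.D k c))))) (1 / 2) (by norm_num)
    (fun i k => (LLM ((hc.D S k).D S k) (B.c2 k k).1 i i).1)
    (fun i k => (LLM ((hc.D S k).D S k) (B.c2 k k).1 i i).2)
  obtain ⟨u6, v6⟩ := two (fun j i => S.EI (S.LL j i (S.Ds i (S.D j c)))) 1 (by norm_num)
    (fun j i => (((hc.D S j).Ds S i).ml (S.l2 j i)).ml _)
    (fun j i => (nEI μ w (((hc.D S j).Ds S i).ml (S.l2 j i))
      (nLL μ hZ wD ((hc.D S j).Ds S i) (B.c2 i j).2.2 j i)).trans hL3)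
  rw [one_smul] at u6 v6
  obtain ⟨u7, v7⟩ := one (fun i => S.LL i i c) 2 (by norm_num) (fun i => hc.ml _)
    (fun i => (nLL μ hZ wE hc hnc i i).trans hL3)
  obtain ⟨u8, v8⟩ := two (fun j i => S.EI (S.L j (S.L i (S.Ds j (S.D i c))))) 2 (by norm_num)
    (fun j i => (LLM ((hc.D S i).Ds S j) (B.c2 j i).2.2 j i).1)
    (fun j i => (LLM ((hc.D S i).Ds S j) (B.c2 j i).2.2 j i).2)
  have w1 := nn_add μ u1 u2 wE
  have w2 := nn_add μ (u1.add u2) u3 wE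
  have w3 := nn_add μ ((u1.add u2).add u3) u4 wE
  have w4 := nn_sub μ (((u1.add u2).add u3).add u4) u5 wE
  have w5 := nn_add μ ((((u1.add u2).add u3).add u4).sub u5) u6 wE
  have w6 := nn_add μ (((((u1.add u2).add u3).add u4).sub u5).add u6) u7 wE
  have w7 := nn_sub μ ((((((u1.add u2).add u3).add u4).sub u5).add u6).add u7) u8 wE
  have hQ : 0 ≤ (n + 1) ^ 4 * (Lam ^ 4 * M) := mul_nonneg (by positivity) (hM.trans hL2)
  have e0 : 25600 * (n + 1) ^ 4 * Lam ^ 4 * M = 25600 * ((n + 1) ^ 4 * (Lam ^ 4 * M)) := by ring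
  rw [e0]
  have v1' : nn μ (S.e * w.mi) ((8 : ℝ) • ∑ i, S.L i (S.D i b)) ≤
    64 * ((n + 1) ^ 4 * (Lam ^ 4 * M)) := v1.trans (le_of_eq (by ring))
  unfold gg
  linarith

/-- THE BOUND of the error terms. -/
theorem err_le {K : ℝ} (hK : 0 < K) (hS : MS ≥ 0) : |errT μ S b c| ≤ K * MS +
    12800 * ((Fintype.card ι : ℝ) + 1) ^ 4 * Lam ^ 4 * (K⁻¹ + eps) * M := by
  have hM := bM μ w B
  have hL := Lam4 hZ
  have e0 := hZ.e0
  set n : ℝ := (Fintype.card ι : ℝ) with hn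
  have hn0 : 0 ≤ n := Nat.cast_nonneg _
  have hL2 : M ≤ Lam ^ 4 * M := by
    have : (1 : ℝ) ≤ Lam ^ 4 := by nlinarith [hZ.L1, sq_nonneg Lam]
    nlinarith
  have wE : ∀ z ∈ Z, 0 ≤ ((S.e * w.mi : Sm E) : E → ℝ) z := fun z _ => wE0 w z
  have hgg := b_gg μ w hZ hb hc B
  rw [← hn] at hgg
  have hgs : Su Z (gg S b c) := by
    unfold gg
    refine Su.sub (Su.add (Su.add (Su.sub (Su.add (Su.add (Su.add ?_ ?_) ?_) ?_) ?_) ?_) ?_) ?_
    · exact (Su.sum fun j _ => (hb.D S j).ml _).smul _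
    · exact (Su.sum fun j _ => Su.sum fun i _ => ((((hc.Ds S i).D S j).ml _).ml _).ml _).smul _
    · exact (Su.sum fun j _ => Su.sum fun i _ => ((((hc.D S i).D S j).ml _).ml _).ml _).smul _
    · exact (Su.sum fun j _ => (hc.K S j).ml _).smul _
    · exact (Su.sum fun j _ => Su.sum fun i _ => ((((hc.D S i).D S i).ml _).ml _).ml _).smul _
    · exact Su.sum fun j _ => Su.sum fun i _ => (((hc.D S j).Ds S i).ml _).ml _
    · exact (Su.sum fun j _ => hc.ml _).smul _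
    · exact (Su.sum fun j _ => Su.sum fun i _ => ((((hc.D S i).Ds S j).ml _).ml _).ml _).smul _
  have h1 := pair μ (hc.D2 S) hgs (s := 1) (t := K) zero_le_one hK (fun z _ => wS0 w z) wE
    (fun z hz => by
      change 1 ≤ 1 ^ 2 * ((S.e' : E → ℝ) z * (mu S : E → ℝ) z *
        ((S.e : E → ℝ) z * (w.mi : E → ℝ) z))
      rw [e'_apply w, mi_apply]
      have a1 := w.he z
      have a2 := mu_ge w z
      have a3 : 0 < (mu S : E → ℝ) z := by linarith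
      apply le_of_eq
      field_simp) B.c3 hgg
  have hdc := dc_eq S μ b c
  have s1 : ip μ (K2 S b) ((S.osc μ).LDD c) =
      ∑ i, ∑ j, ip μ (S.K i (S.K i b)) (S.L j (S.D j c)) := by
    rw [oLDD, K2, lD]
    simp only [LinearMap.sum_apply, map_sum, Module.End.mul_apply]
    exact Finset.sum_comm
  have s2 : ip μ ((S.osc μ).Ds2 b) (K2s S b) - ip μ ((S.osc μ).D2 b) (K2 S b) =
      ∑ i, ∑ j, (ip μ (S.Ds i (S.Ds i b)) (S.Ks j (S.Ks j b)) -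
        ip μ (S.D i (S.D i b)) (S.K j (S.K j b))) := by
    rw [oDs2, oD2, K2, K2s, Dat.Ds2, Dat.D2]
    simp only [LinearMap.sum_apply, map_sum, Module.End.mul_apply, Finset.sum_sub_distrib]
    congr 1 <;> exact Finset.sum_comm
  have s3 : ip μ (K2s S b) (K2s S b) - ip μ (K2 S b) (K2 S b) =
      ∑ i, ∑ j, (ip μ (S.Ks i (S.Ks i b)) (S.Ks j (S.Ks j b)) -
        ip μ (S.K i (S.K i b)) (S.K j (S.K j b))) := by
    rw [K2, K2s]
    simp only [LinearMap.sum_apply, map_sum, Module.End.mul_apply, Finset.sum_sub_distrib]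
    congr 1 <;> exact Finset.sum_comm
  have s4 : ip μ (K2s S b) ((S.osc μ).Rs S.EI c) - ip μ ((S.osc μ).R S.EI b) (K2 S c) =
      ∑ j, ∑ i, (ip μ (S.Ks j (S.Ks j b)) (S.Ds i (S.Ks i c)) -
        ip μ (S.D i (S.K i b)) (S.K j (S.K j c))) := by
    rw [oR, oRs, K2, K2s, Ro, Rs]
    simp only [LinearMap.sum_apply, map_sum, Module.End.mul_apply, Finset.sum_sub_distrib]
    rw [Finset.sum_comm (f := fun j i => ip μ (S.D i (S.K i b)) (S.K j (S.K j c)))]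
    congr 1
    exact Finset.sum_comm
  have dbl : ∀ (f : ι → ι → ℝ), (∀ i j, |f i j| ≤ eps * (64 * Lam ^ 4 * M)) →
      |∑ i, ∑ j, f i j| ≤ n ^ 2 * (eps * (64 * Lam ^ 4 * M)) := by
    intro f hf
    calc |∑ i, ∑ j, f i j| ≤ ∑ i, |∑ j, f i j| := Finset.abs_sum_le_sum_abs _ _
      _ ≤ ∑ i : ι, ∑ j : ι, |f i j| := Finset.sum_le_sum fun i _ => Finset.abs_sum_le_sum_abs _ _
      _ ≤ ∑ _i : ι, ∑ _j : ι, eps * (64 * Lam ^ 4 * M) :=
          Finset.sum_le_sum fun i _ => Finset.sum_le_sum fun j _ => hf i j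
      _ = _ := by
          simp only [Finset.sum_const, Finset.card_univ, nsmul_eq_mul]
          ring
  have t1 := dbl _ fun i j => b_e2 μ w hZ hb hc B i j
  have t2 := dbl _ fun i j => b_x1a μ w hZ hb B i j
  have t3 := dbl _ fun i j => b_x1b μ w hZ hb B i j
  have t4 := dbl _ fun j i => b_x2 μ w hZ hb hc B i j
  rw [← s1] at t1
  rw [← s2] at t2
  rw [← s3] at t3
  rw [← s4] at t4
  have hn4 : n ^ 2 ≤ (n + 1) ^ 4 := by
    nlinarith [sq_nonneg n, mul_nonneg hn0 hn0, pow_nonneg hn0 3, pow_nonneg hn0 4]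
  have hQ : 0 ≤ eps * (Lam ^ 4 * M) := mul_nonneg e0.le (hM.trans hL2)
  have hq : n ^ 2 * (eps * (64 * Lam ^ 4 * M)) ≤ 64 * ((n + 1) ^ 4 * (eps * (Lam ^ 4 * M))) := by
    have := mul_le_mul_of_nonneg_right hn4 hQ
    nlinarith
  have hE : errT μ S b c = ip μ (S.D2 c) (gg S b c) - ip μ (K2 S b) ((S.osc μ).LDD c) +
      (1 / 2) * (ip μ ((S.osc μ).Ds2 b) (K2s S b) - ip μ ((S.osc μ).D2 b) (K2 S b)) +
      (1 / 16) * (ip μ (K2s S b) (K2s S b) - ip μ (K2 S b) (K2 S b)) +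
      (1 / 2) * (ip μ (K2s S b) ((S.osc μ).Rs S.EI c) - ip μ ((S.osc μ).R S.EI b) (K2 S c)) := by
    rw [← hdc, errT]; ring
  have c1 := abs_le.1 h1
  have c2 := abs_le.1 (t1.trans hq)
  have c3 := abs_le.1 (t2.trans hq)
  have c4 := abs_le.1 (t3.trans hq)
  have c5 := abs_le.1 (t4.trans hq)
  have eR : K * MS + 12800 * (n + 1) ^ 4 * Lam ^ 4 * (K⁻¹ + eps) * M =
      K * MS + 12800 * (K⁻¹ * ((n + 1) ^ 4 * (Lam ^ 4 * M))) +
        12800 * ((n + 1) ^ 4 * (eps * (Lam ^ 4 * M))) := by ring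
  have eL : 1 / 2 * (K * MS + K⁻¹ * (25600 * (n + 1) ^ 4 * Lam ^ 4 * M)) =
      1 / 2 * (K * MS) + 12800 * (K⁻¹ * ((n + 1) ^ 4 * (Lam ^ 4 * M))) := by ring
  rw [eL] at c1
  have hp : 0 ≤ (n + 1) ^ 4 * (eps * (Lam ^ 4 * M)) := mul_nonneg (by positivity) hQ
  have hKM : 0 ≤ K * MS := mul_nonneg hK.le hS
  rw [hE, eR, abs_le]
  constructor <;> linarith [c1.1, c1.2, c2.1, c2.2, c3.1, c3.2, c4.1, c4.2, c5.1, c5.2]

end Vale.Agent.P088.R2.H516.B
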