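import Vale.Agent.P088.R2.H516.B.Def

/-!
# Weighted products of test functions supported in a zone
-/

open MeasureTheory Set

noncomputable section

namespace Vale.Agent.P088.R2.H516.B

open Vale.Agent.P088.R2.H464.EP Vale.Agent.P088.R2.H961.B.T

variable {ι E : Type} [Fintype ι] [DecidableEq ι] [NormedAddCommGroup E] [NormedSpace ℝ E]

/-! ## Supports -/

section supp
variable {Z : Set E}

theorem Su.zero_of {f : TE E} (h : Su Z f) {z : E} (hz : z ∉ Z) : f.fn z = 0 :=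
  image_eq_zero_of_notMem_tsupport fun h' => hz (h h')

theorem Su.dv {f : TE E} (h : Su Z f) (v : E) : Su Z (dv v f) :=
  (tsupport_fderiv_apply_subset ℝ v).trans h

theorem Su.ml {f : TE E} (h : Su Z f) (g : Sm E) : Su Z (ml g f) :=
  (tsupport_mul_subset_right (f := (g : E → ℝ)) (g := f.fn)).trans h

theorem Su.add {f g : TE E} (h : Su Z f) (h' : Su Z g) : Su Z (f + g) :=
  (tsupport_add f.fn g.fn).trans (union_subset h h')

theorem Su.neg {f : TE E} (h : Su Z f) : Su Z (-f) := by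
  have e : (-f).fn = -f.fn := rfl
  rw [Su, e, tsupport, Function.support_neg]
  exact h

theorem Su.sub {f g : TE E} (h : Su Z f) (h' : Su Z g) : Su Z (f - g) := by
  rw [sub_eq_add_neg]; exact h.add h'.neg

theorem Su.smul {f : TE E} (h : Su Z f) (c : ℝ) : Su Z (c • f) :=
  (tsupport_mul_subset_right (f := fun _ => c) (g := f.fn)).trans h

theorem Su.sum {κ : Type*} {s : Finset κ} {f : κ → TE E} (h : ∀ i ∈ s, Su Z (f i)) :
    Su Z (∑ i ∈ s, f i) := by
  classical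
  induction s using Finset.induction_on with
  | empty =>
    rw [Finset.sum_empty, Su]
    have : (0 : TE E).fn = fun _ => 0 := rfl
    rw [this, tsupport, Function.support_fun_zero, closure_empty]
    exact empty_subset _
  | insert i s hi ih =>
    rw [Finset.sum_insert hi]
    exact (h i (Finset.mem_insert_self _ _)).add
      (ih fun j hj => h j (Finset.mem_insert_of_mem hj))

variable (S : Dat ι E)

theorem Su.D {f : TE E} (h : Su Z f) (i : ι) : Su Z (S.D i f) := (h.dv _).add (h.ml _)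
theorem Su.Ds {f : TE E} (h : Su Z f) (i : ι) : Su Z (S.Ds i f) := (h.ml _).sub (h.dv _)
theorem Su.K {f : TE E} (h : Su Z f) (i : ι) : Su Z (S.K i f) := (h.dv _).add (h.ml _)
theorem Su.Ks {f : TE E} (h : Su Z f) (i : ι) : Su Z (S.Ks i f) := (h.ml _).sub (h.dv _)

theorem Su.Zo {f : TE E} (h : Su Z f) (k : Fin 4) (i : ι) : Su Z (Zo S k i f) := by
  match k with
  | 0 => exact h.D S i
  | 1 => exact h.Ds S i
  | 2 => exact h.K S i
  | 3 => exact h.Ks S i

theorem Su.D2 {f : TE E} (h : Su Z f) : Su Z (S.D2 f) := by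
  have : S.D2 f = ∑ k, S.D k (S.D k f) := by simp only [Dat.D2, LinearMap.sum_apply]; rfl
  rw [this]
  exact Su.sum fun k _ => (h.D S k).D S k

end supp

/-! ## Norms and products -/

variable [MeasurableSpace E] [BorelSpace E] [FiniteDimensional ℝ E]
  (μ : Measure E) [μ.IsAddHaarMeasure] {Z : Set E}

theorem nn_nonneg {θ : Sm E} {x : TE E} (hx : Su Z x) (hθ : ∀ z ∈ Z, 0 ≤ (θ : E → ℝ) z) :
    0 ≤ nn μ θ x := by
  rw [nn_In]
  have h0 : In μ (0 : TE E) = 0 := map_zero _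
  rw [← h0]
  refine In_mono μ fun z => ?_
  simp only [TE.zero_fn, mS_fn, ml_apply]
  by_cases hz : z ∈ Z
  · have := mul_nonneg (hθ z hz) (mul_self_nonneg (x.fn z))
    nlinarith [this]
  · rw [hx.zero_of hz]; simp

theorem nn_mono {θ θ' : Sm E} {x y : TE E} (hx : Su Z x) (hy : Su Z y)
    (h : ∀ z ∈ Z, (θ : E → ℝ) z * x.fn z ^ 2 ≤ (θ' : E → ℝ) z * y.fn z ^ 2) :
    nn μ θ x ≤ nn μ θ' y := by
  rw [nn_In, nn_In]
  refine In_mono μ fun z => ?_
  simp only [mS_fn, ml_apply]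
  by_cases hz : z ∈ Z
  · have := h z hz
    nlinarith [this]
  · rw [hx.zero_of hz, hy.zero_of hz]; simp

/-- Multiplication by a bounded function. -/
theorem nn_ml {θ θ' g : Sm E} {x : TE E} (hx : Su Z x)
    (h : ∀ z ∈ Z, (θ : E → ℝ) z * (g : E → ℝ) z ^ 2 ≤ (θ' : E → ℝ) z) :
    nn μ θ (ml g x) ≤ nn μ θ' x := by
  refine nn_mono μ (hx.ml g) hx fun z hz => ?_
  have := mul_le_mul_of_nonneg_right (h z hz) (sq_nonneg (x.fn z))
  rw [ml_apply]
  nlinarith [this]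

theorem nn_smul (θ : Sm E) (r : ℝ) (x : TE E) : nn μ θ (r • x) = r ^ 2 * nn μ θ x := by
  rw [nn, nn]
  simp only [map_smul, LinearMap.smul_apply, smul_eq_mul]
  ring

theorem nn_smul_left (θ : Sm E) (r : ℝ) (x : TE E) : nn μ (r • θ) x = r * nn μ θ x := by
  rw [nn, nn]
  simp only [map_smul, LinearMap.smul_apply, smul_eq_mul]

theorem nn_neg (θ : Sm E) (x : TE E) : nn μ θ (-x) = nn μ θ x := by
  rw [nn, nn]
  simp only [map_neg, LinearMap.neg_apply, neg_neg]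

/-- A weighted triangle inequality. -/
theorem nn_add {θ : Sm E} {x y : TE E} (hx : Su Z x) (hy : Su Z y)
    (hθ : ∀ z ∈ Z, 0 ≤ (θ : E → ℝ) z) : nn μ θ (x + y) ≤ 2 * nn μ θ x + 2 * nn μ θ y := by
  have h := nn_nonneg μ (hx.sub hy) hθ
  have e : nn μ θ (x + y) + nn μ θ (x - y) = 2 * nn μ θ x + 2 * nn μ θ y := by
    simp only [nn, map_add, map_sub, LinearMap.add_apply, LinearMap.sub_apply]
    ring
  linarith

theorem nn_sub {θ : Sm E} {x y : TE E} (hx : Su Z x) (hy : Su Z y)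
    (hθ : ∀ z ∈ Z, 0 ≤ (θ : E → ℝ) z) : nn μ θ (x - y) ≤ 2 * nn μ θ x + 2 * nn μ θ y := by
  have := nn_add μ hx hy.neg hθ
  rwa [nn_neg, ← sub_eq_add_neg] at this

theorem nn_sum {κ : Type*} (s : Finset κ) {θ : Sm E} {f : κ → TE E} {M : ℝ}
    (hf : ∀ i ∈ s, Su Z (f i)) (hθ : ∀ z ∈ Z, 0 ≤ (θ : E → ℝ) z)
    (hM : ∀ i ∈ s, nn μ θ (f i) ≤ M) :
    nn μ θ (∑ i ∈ s, f i) ≤ (s.card : ℝ) ^ 2 * M := by
  rw [nn_In]
  have e : (s.card : ℝ) ^ 2 * M = (s.card : ℝ) * ((s.card : ℝ) * M) := by ring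
  have h1 : In μ (mS (ml θ (∑ i ∈ s, f i)) (∑ i ∈ s, f i)) ≤
      In μ ((s.card : ℝ) • ∑ i ∈ s, mS (ml θ (f i)) (f i)) := by
    refine In_mono μ fun z => ?_
    simp only [mS_fn, ml_apply, TE.smul_fn, sum_fn]
    by_cases hz : z ∈ Z
    · have h2 := sq_sum_le_card_mul_sum_sq (s := s) (f := fun i => (f i).fn z)
      have h3 := mul_le_mul_of_nonneg_left h2 (hθ z hz)
      have h4 : ∑ i ∈ s, (θ : E → ℝ) z * (f i).fn z * (f i).fn z =
          (θ : E → ℝ) z * ∑ i ∈ s, (f i).fn z ^ 2 := by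
        rw [Finset.mul_sum]
        exact Finset.sum_congr rfl fun i _ => by ring
      rw [h4]
      nlinarith [h3]
    · have : ∀ i ∈ s, (f i).fn z = 0 := fun i hi => (hf i hi).zero_of hz
      rw [Finset.sum_congr rfl this]
      have h5 : ∀ i ∈ s, (θ : E → ℝ) z * (f i).fn z * (f i).fn z = 0 := fun i hi => by
        rw [this i hi]; ring
      rw [Finset.sum_congr rfl h5]
      simp
  refine h1.trans ?_
  rw [map_smul, map_sum, smul_eq_mul, e]
  refine mul_le_mul_of_nonneg_left ?_ (Nat.cast_nonneg _)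
  have : ∑ i ∈ s, In μ (mS (ml θ (f i)) (f i)) ≤ ∑ _i ∈ s, M := Finset.sum_le_sum hM
  rwa [Finset.sum_const, nsmul_eq_mul] at this

/-- The product of two functions, against weights. -/
theorem pair {θ₁ θ₂ : Sm E} {x y : TE E} (hx : Su Z x) (hy : Su Z y) {s t M₁ M₂ : ℝ}
    (hs : 0 ≤ s) (ht : 0 < t) (h1 : ∀ z ∈ Z, 0 ≤ (θ₁ : E → ℝ) z)
    (h2 : ∀ z ∈ Z, 0 ≤ (θ₂ : E → ℝ) z)
    (h : ∀ z ∈ Z, 1 ≤ s ^ 2 * ((θ₁ : E → ℝ) z * (θ₂ : E → ℝ) z))
    (hM₁ : nn μ θ₁ x ≤ M₁) (hM₂ : nn μ θ₂ y ≤ M₂) :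
    |ip μ x y| ≤ s / 2 * (t * M₁ + t⁻¹ * M₂) := by
  have key : ∀ z, |x.fn z * y.fn z| ≤ s / 2 * (t * ((θ₁ : E → ℝ) z * x.fn z * x.fn z) +
      t⁻¹ * ((θ₂ : E → ℝ) z * y.fn z * y.fn z)) := by
    intro z
    by_cases hz : z ∈ Z
    · set u := (θ₁ : E → ℝ) z
      set v := (θ₂ : E → ℝ) z
      set a := x.fn z
      set b := y.fn z
      have hu := h1 z hz
      have hv := h2 z hz
      have h0 := h z hz
      have hA : 0 ≤ s * t * (u * a ^ 2) := by positivity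
      have hB : 0 ≤ s * t⁻¹ * (v * b ^ 2) := by positivity
      have hAB : (a * b) ^ 2 ≤ s * t * (u * a ^ 2) * (s * t⁻¹ * (v * b ^ 2)) := by
        have e : s * t * (u * a ^ 2) * (s * t⁻¹ * (v * b ^ 2)) =
            (t * t⁻¹) * ((s ^ 2 * (u * v)) * (a * b) ^ 2) := by ring
        rw [e, mul_inv_cancel₀ ht.ne', one_mul]
        nlinarith [mul_le_mul_of_nonneg_right h0 (sq_nonneg (a * b))]
      have h3 := H961.B.ag hA hB hAB
      rw [abs_le]
      constructor <;> nlinarith [h3.1, h3.2]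
    · rw [hx.zero_of hz, hy.zero_of hz]; simp
  have h5 : |ip μ x y| ≤ In μ ((s / 2) • (t • mS (ml θ₁ x) x + t⁻¹ • mS (ml θ₂ y) y)) := by
    rw [ip_In, abs_le]
    constructor
    · rw [neg_le, ← map_neg]
      refine In_mono μ fun z => ?_
      have := key z
      simp only [TE.neg_fn, TE.smul_fn, TE.add_fn, mS_fn, ml_apply]
      linarith [neg_abs_le (x.fn z * y.fn z)]
    · refine In_mono μ fun z => ?_
      have := key z
      simp only [TE.smul_fn, TE.add_fn, mS_fn, ml_apply]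
      linarith [le_abs_self (x.fn z * y.fn z)]
  refine h5.trans ?_
  rw [map_smul, map_add, map_smul, map_smul, smul_eq_mul, smul_eq_mul, smul_eq_mul, ← nn_In,
    ← nn_In]
  have := inv_nonneg.2 ht.le
  gcongr

end Vale.Agent.P088.R2.H516.B
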